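import Crest.Agent.SFD.Growth
import Crest.Agent.SF.DescC

/-!
# Row 323 (S0500): the curve sequence gives `GData` and the single-fold triples (helper65)
-/

set_option autoImplicit false
set_option linter.all false

namespace Crest.Agent.SFD

open Crest.Agent.SF (VV VD Vu Vw Nb)

variable {A : Type}

theorem SF.cop {f g : (A → ℕ) → ℕ} (hf : SFF f) (hg : SFF g) :
    SF {a | 2 ≤ g a ∧ Nat.Coprime (f a) (g a)} := by
  have hf1 := SFF.rename (C := Option A) some hf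
  have hg1 := SFF.rename (C := Option A) some hg
  refine (SF.exU (P := fun a s => s < g a ∧ (f a * s) % g a = 1) ?_ ?_).congr ?_
  · exact (SF.lt (SFF.var none) hg1).and
      (SF.eq ((hf1.mul (SFF.var none)).mod hg1) (SFF.const 1))
  · rintro a s s' ⟨h1, h2⟩ ⟨h3, h4⟩
    have hg2 : 2 ≤ g a := by
      by_contra hc
      have h5 : g a = 1 := by omega
      rw [h5, Nat.mod_one] at h2
      omega
    have m1 : f a * s ≡ 1 [MOD g a] := by
      unfold Nat.ModEq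
      rw [h2, Nat.mod_eq_of_lt (by omega : 1 < g a)]
    have m2 : f a * s' ≡ 1 [MOD g a] := by
      unfold Nat.ModEq
      rw [h4, Nat.mod_eq_of_lt (by omega : 1 < g a)]
    have m3 : s ≡ s' [MOD g a] := by
      calc s = 1 * s := (one_mul s).symm
        _ ≡ (f a * s') * s [MOD g a] := (m2.symm).mul_right s
        _ = (f a * s) * s' := by ring
        _ ≡ 1 * s' [MOD g a] := m1.mul_right s'
        _ = s' := one_mul s'
    have m4 : s % g a = s' % g a := m3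
    rwa [Nat.mod_eq_of_lt h1, Nat.mod_eq_of_lt h3] at m4
  · intro a
    simp only [Set.mem_ofPred_eq]
    constructor
    · rintro ⟨h1, h2⟩
      obtain ⟨m, hm, hm'⟩ := Nat.exists_mul_mod_eq_one_of_coprime h2 (by omega : 1 < g a)
      exact ⟨m, hm, hm'⟩
    · rintro ⟨s, h1, h2⟩
      have hg2 : 2 ≤ g a := by
        by_contra hc
        have h5 : g a = 1 := by omega
        rw [h5, Nat.mod_one] at h2
        omega
      refine ⟨hg2, ?_⟩
      apply Nat.coprime_of_mul_modEq_one s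
      unfold Nat.ModEq
      rw [h2, Nat.mod_eq_of_lt (by omega : 1 < g a)]

theorem SF.or3 {f1 g1 f2 g2 f3 g3 : (A → ℕ) → ℕ} (hf1 : SFF f1) (hg1 : SFF g1) (hf2 : SFF f2)
    (hg2 : SFF g2) (hf3 : SFF f3) (hg3 : SFF g3) :
    SF {a | f1 a = g1 a ∨ f2 a = g2 a ∨ f3 a = g3 a} := by
  have h := SF.eq (((((hf1.sub hg1).add (hg1.sub hf1)).mul
    ((hf2.sub hg2).add (hg2.sub hf2))).mul ((hf3.sub hg3).add (hg3.sub hf3)))) (SFF.const 0)
  refine h.congr fun a => ?_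
  simp only [Set.mem_ofPred_eq, mul_eq_zero]
  omega

/-- solutions -/
def IsQ' (D u v w : ℕ) : Prop :=
  0 < D ∧ u ^ 2 + 5 * D ^ 2 = v ^ 2 ∧ v ^ 2 + 5 * D ^ 2 = w ^ 2 ∧ (2 ≤ v ∧ Nat.Coprime D v)

theorem isQ'_iff (D u v w : ℕ) :
    IsQ' D u v w ↔ ∃ n, 1 ≤ n ∧ D = VD n ∧ u = Vu n ∧ v = VV n ∧ w = Vw n := by
  constructor
  · rintro ⟨h1, h2, h3, _, h4⟩
    exact Crest.Agent.SF.all_solutions h1 h2 h3 h4
  · rintro ⟨n, hn, rfl, rfl, rfl, rfl⟩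
    obtain ⟨h1, h2, h3⟩ := Crest.Agent.SF.V_eqs n
    have h4 := Crest.Agent.SF.VD_pos n hn
    refine ⟨h4, h1, h2, ?_, h3⟩
    by_contra hc
    have h5 : VV n ≤ 1 := by omega
    nlinarith [sq_nonneg (Vu n)]

theorem SF.isQ {D u v w : (A → ℕ) → ℕ} (hD : SFF D) (hu : SFF u) (hv : SFF v) (hw : SFF w) :
    SF {a | IsQ' (D a) (u a) (v a) (w a)} :=
  ((SF.lt (SFF.const 0) hD).and ((SF.eq ((hu.npow 2).add ((SFF.const 5).mul (hD.npow 2)))
    (hv.npow 2)).and ((SF.eq ((hv.npow 2).add ((SFF.const 5).mul (hD.npow 2))) (hw.npow 2)).and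
    (SF.cop hD hv)))).congr fun a => Iff.rfl

theorem SF.nb {D u v w D' u' v' w' : (A → ℕ) → ℕ} (hD : SFF D) (hu : SFF u) (hv : SFF v)
    (hw : SFF w) (hD' : SFF D') (hu' : SFF u') (hv' : SFF v') (hw' : SFF w') :
    SF {a | 1 ≤ v a ∧ Nb (D a) (u a) (v a) (w a) (D' a) (u' a) (v' a) (w' a)} := by
  have c5 : SFF (fun _ : A → ℕ => 5) := SFF.const 5
  have Z : SFF (fun a => 1681 * v a ^ 2 + 3600 * D a ^ 2) :=
    ((SFF.const 1681).mul (hv.npow 2)).add ((SFF.const 3600).mul (hD.npow 2))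
  have p : SFF (fun a => 1519 * D a * v a) := ((SFF.const 1519).mul hD).mul hv
  have q : SFF (fun a => 492 * u a * w a) := ((SFF.const 492).mul hu).mul hw
  have DZ := hD'.mul Z
  have h := ((SF.le (SFF.const 1) hv).and ((SF.lt hv hv').and ((SF.lt (SFF.const 0) hD').and
    ((SF.cop hD' hv').and
    ((SF.eq ((hu'.npow 2).add (c5.mul (hD'.npow 2))) (hv'.npow 2)).and
    ((SF.eq ((hv'.npow 2).add (c5.mul (hD'.npow 2))) (hw'.npow 2)).and
    (SF.or3 DZ (hv'.mul (p.add q)) (DZ.add (hv'.mul q)) (hv'.mul p)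
      (DZ.add (hv'.mul p)) (hv'.mul q))))))))
  refine h.congr fun a => ?_
  simp only [Set.mem_ofPred_eq]
  constructor
  · rintro ⟨h0, h1, h2, h3, h4, h5, h6⟩
    exact ⟨h0, h1, h2, ⟨by omega, h3⟩, h4, h5, h6⟩
  · rintro ⟨h0, h1, h2, ⟨_, h3⟩, h4, h5, h6⟩
    exact ⟨h0, h1, h2, h3, h4, h5, h6⟩

theorem gdata : GData VV where
  V0 := Crest.Agent.SF.VV_zero
  V1 := Crest.Agent.SF.VV_one
  pos := Crest.Agent.SF.VV_pos
  up := Crest.Agent.SF.VV_upper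
  lo := fun n => by
    rw [mul_comm (41 ^ 4)]
    exact Crest.Agent.SF.VV_lower n

theorem VV_inj {m n : ℕ} (h : VV m = VV n) : m = n :=
  Crest.Agent.SF.VV_strictMono.injective h

theorem hsf : SF {v : Fin 3 → ℕ | ∃ n, 1 ≤ n ∧ v 0 = VV n ∧ v 1 = VV (n + 1) ∧
    v 2 = VV (n + 2)} := by
  have V : ∀ i : Fin 3, SFF (fun v : Fin 3 ⊕ Fin 9 → ℕ => v (Sum.inl i)) := fun i => SFF.var _
  have c : ∀ i : Fin 9, SFF (fun v : Fin 3 ⊕ Fin 9 → ℕ => v (Sum.inr i)) := fun i => SFF.var _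
  have h := (SF.isQ (c 0) (c 1) (V 0) (c 2)).and
    ((SF.nb (c 0) (c 1) (V 0) (c 2) (c 3) (c 4) (V 1) (c 5)).and
    (SF.nb (c 3) (c 4) (V 1) (c 5) (c 6) (c 7) (V 2) (c 8)))
  have char : ∀ (a : Fin 3 → ℕ) (c : Fin 9 → ℕ),
      (IsQ' (c 0) (c 1) (a 0) (c 2) ∧ (1 ≤ a 0 ∧ Nb (c 0) (c 1) (a 0) (c 2) (c 3) (c 4) (a 1) (c 5)) ∧
        (1 ≤ a 1 ∧ Nb (c 3) (c 4) (a 1) (c 5) (c 6) (c 7) (a 2) (c 8))) ↔
      ∃ n, 1 ≤ n ∧ a 0 = VV n ∧ a 1 = VV (n + 1) ∧ a 2 = VV (n + 2) ∧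
        c = ![VD n, Vu n, Vw n, VD (n + 1), Vu (n + 1), Vw (n + 1), VD (n + 2), Vu (n + 2),
          Vw (n + 2)] := by
    intro a c
    constructor
    · rintro ⟨hQ, ⟨_, hN1⟩, ⟨_, hN2⟩⟩
      obtain ⟨n, hn, e0, e1, e2, e3⟩ := (isQ'_iff _ _ _ _).1 hQ
      rw [e0, e1, e2, e3] at hN1
      obtain ⟨f0, f1, f2, f3⟩ := (Crest.Agent.SF.nb_iff n hn _ _ _ _).1 hN1
      rw [f0, f1, f2, f3] at hN2
      obtain ⟨g0, g1, g2, g3⟩ := (Crest.Agent.SF.nb_iff (n + 1) (by omega) _ _ _ _).1 hN2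
      refine ⟨n, hn, e2, f2, g2, ?_⟩
      funext i
      fin_cases i
      · exact e0
      · exact e1
      · exact e3
      · exact f0
      · exact f1
      · exact f3
      · exact g0
      · exact g1
      · exact g3
    · rintro ⟨n, hn, e0, e1, e2, rfl⟩
      rw [e0, e1, e2]
      exact ⟨(isQ'_iff _ _ _ _).2 ⟨n, hn, rfl, rfl, rfl, rfl⟩,
        ⟨Crest.Agent.SF.VV_pos n, (Crest.Agent.SF.nb_iff n hn _ _ _ _).2 ⟨rfl, rfl, rfl, rfl⟩⟩,
        ⟨Crest.Agent.SF.VV_pos (n + 1),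
          (Crest.Agent.SF.nb_iff (n + 1) (by omega) _ _ _ _).2 ⟨rfl, rfl, rfl, rfl⟩⟩⟩
  refine (SF.exC h ?_).congr ?_
  · intro a c c' h1 h2
    obtain ⟨n, hn, e0, _, _, ec⟩ := (char a c).1 h1
    obtain ⟨m, hm, f0, _, _, fc⟩ := (char a c').1 h2
    have : n = m := VV_inj (e0.symm.trans f0)
    subst this
    exact ec.trans fc.symm
  · intro a
    constructor
    · rintro ⟨n, hn, e0, e1, e2⟩
      exact ⟨_, (char a _).2 ⟨n, hn, e0, e1, e2, rfl⟩⟩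
    · rintro ⟨c, hc⟩
      obtain ⟨n, hn, e0, e1, e2, _⟩ := (char a c).1 hc
      exact ⟨n, hn, e0, e1, e2⟩

/-- EXPONENTIATION IS SINGLE-FOLD -/
theorem exp_SF : SF {v : Fin 3 → ℕ | v 2 = v 0 ^ v 1} := exp_SF_of_GData gdata hsf

end Crest.Agent.SFD
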