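import Crest.Agent.SFD.Arith

/-!
# Row 323 (S0500), Part I: partial recursive functions have single-fold graphs (helper65)
-/

set_option autoImplicit false
set_option linter.all false

namespace Crest.Agent.SFD

/-- statement of the iteration lemma (helper15) -/
def IterStmt : Prop := ∀ R : ℕ → ℕ → ℕ → ℕ → Prop,
  SF {v : Fin 4 → ℕ | R (v 0) (v 1) (v 2) (v 3)} →
  (∀ p i s t t', R p i s t → R p i s t' → t = t') →
  SF {v : Fin 4 → ℕ | ∃ q : ℕ → ℕ, q 0 = v 2 ∧ q (v 1) = v 3 ∧
    ∀ i < v 1, R (v 0) i (q i) (q (i + 1))}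

/-- the graph of a partial function is single-fold -/
def SFP (f : ℕ →. ℕ) : Prop := SF {v : Bool → ℕ | v true ∈ f (v false)}

theorem SFP.mem {A : Type} {f : ℕ →. ℕ} (hf : SFP f) {g h : (A → ℕ) → ℕ} (hg : SFF g)
    (hh : SFF h) : SF {a | h a ∈ f (g a)} := by
  have h1 := SF.comp (A := A) hf (f := fun b => if b then h else g) (by
    intro b; cases b <;> simpa)
  exact h1

private theorem comp4 {A : Type} {R : ℕ → ℕ → ℕ → ℕ → Prop}
    (h : SF {v : Fin 4 → ℕ | R (v 0) (v 1) (v 2) (v 3)}) {f0 f1 f2 f3 : (A → ℕ) → ℕ}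
    (h0 : SFF f0) (h1 : SFF f1) (h2 : SFF f2) (h3 : SFF f3) :
    SF {a | R (f0 a) (f1 a) (f2 a) (f3 a)} := by
  have := SF.comp (A := A) h (f := ![f0, f1, f2, f3]) (by
    intro i
    fin_cases i
    · exact h0
    · exact h1
    · exact h2
    · exact h3)
  exact this

theorem prec_mem (f g : ℕ →. ℕ) (x y : ℕ) :
    y ∈ (Nat.unpaired fun a n => n.rec (f a) fun y IH => do
      let i ← IH
      g (Nat.pair a (Nat.pair y i)) : ℕ →. ℕ) x ↔
    ∃ s, s ∈ f (Nat.unpair x).1 ∧ ∃ q : ℕ → ℕ, q 0 = s ∧ q (Nat.unpair x).2 = y ∧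
      ∀ i < (Nat.unpair x).2, q (i + 1) ∈ g (Nat.pair (Nat.unpair x).1 (Nat.pair i (q i))) := by
  unfold Nat.unpaired
  generalize (Nat.unpair x).1 = a
  generalize (Nat.unpair x).2 = n
  induction n generalizing y with
  | zero =>
    constructor
    · intro h
      exact ⟨y, h, fun _ => y, rfl, rfl, fun i hi => absurd hi (Nat.not_lt_zero i)⟩
    · rintro ⟨s, hs, q, h0, h1, _⟩
      have : y = s := by rw [← h0, h1]
      subst this
      exact hs
  | succ n ih =>
    constructor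
    · intro h
      obtain ⟨z, hz, hy⟩ := Part.mem_bind_iff.1 h
      obtain ⟨s, hs, q, h0, h1, h2⟩ := (ih z).1 hz
      refine ⟨s, hs, fun i => if i ≤ n then q i else y, by simp [h0], by simp, fun i hi => ?_⟩
      have hi' : i ≤ n := Nat.lt_succ_iff.1 hi
      rcases hi'.lt_or_eq with h3 | h3
      · have h4 : i + 1 ≤ n := h3
        simp only [hi', h4, if_true]
        exact h2 i h3
      · subst h3
        simp only [le_refl, if_true, Nat.not_succ_le_self, if_false]
        rw [h1]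
        exact hy
    · rintro ⟨s, hs, q, h0, h1, h2⟩
      refine Part.mem_bind_iff.2 ⟨q n, (ih (q n)).2 ⟨s, hs, q, h0, rfl, fun i hi =>
        h2 i (Nat.lt_succ_of_lt hi)⟩, ?_⟩
      rw [← h1]
      exact h2 n (Nat.lt_succ_self n)

theorem rfind_mem (f : ℕ →. ℕ) (a y : ℕ) :
    y ∈ Nat.rfind (fun n => (fun m => decide (m = 0)) <$> f (Nat.pair a n)) ↔
      0 ∈ f (Nat.pair a y) ∧ ∀ i < y, ∃ z, z ∈ f (Nat.pair a i) ∧ z ≠ 0 := by
  refine Nat.mem_rfind.trans ?_
  constructor
  · rintro ⟨h1, h2⟩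
    constructor
    · obtain ⟨m, hm, hm'⟩ := (Part.mem_map_iff _).1 h1
      have : m = 0 := by simpa using hm'
      rwa [this] at hm
    · intro i hi
      obtain ⟨m, hm, hm'⟩ := (Part.mem_map_iff _).1 (h2 hi)
      exact ⟨m, hm, by simpa using hm'⟩
  · rintro ⟨h1, h2⟩
    refine ⟨(Part.mem_map_iff _).2 ⟨0, h1, by simp⟩, fun {i} hi => ?_⟩
    obtain ⟨z, hz, hz'⟩ := h2 i hi
    exact (Part.mem_map_iff _).2 ⟨z, hz, by simpa using hz'⟩

theorem SFP.of_partrec (hiter : IterStmt) {f : ℕ →. ℕ} (hf : Nat.Partrec f) : SFP f := by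
  induction hf with
  | zero =>
    refine (SF.eq (A := Bool) (SFF.var true) (SFF.const 0)).congr fun v => ?_
    exact Part.mem_some_iff
  | succ =>
    refine (SF.eq (A := Bool) (SFF.var true) (SFF.var false).succ).congr fun v => ?_
    exact Part.mem_some_iff
  | left =>
    refine (SF.eq (A := Bool) (SFF.var true) (SFF.unpair1 (SFF.var false))).congr fun v => ?_
    exact Part.mem_some_iff
  | right =>
    refine (SF.eq (A := Bool) (SFF.var true) (SFF.unpair2 (SFF.var false))).congr fun v => ?_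
    exact Part.mem_some_iff
  | @pair f g _ _ hf hg =>
    refine ((hf.mem (A := Bool) (SFF.var false) (SFF.unpair1 (SFF.var true))).and
      (hg.mem (SFF.var false) (SFF.unpair2 (SFF.var true)))).congr fun v => ?_
    simp only [Set.mem_ofPred_eq]
    constructor
    · intro h
      obtain ⟨F, hF, hy⟩ := Part.mem_bind_iff.1 h
      obtain ⟨a, ha, rfl⟩ := (Part.mem_map_iff _).1 hF
      obtain ⟨b, hb, hy⟩ := (Part.mem_map_iff _).1 hy
      rw [← hy, Nat.unpair_pair]
      exact ⟨ha, hb⟩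
    · rintro ⟨h1, h2⟩
      refine Part.mem_bind_iff.2 ⟨Nat.pair (Nat.unpair (v true)).1,
        (Part.mem_map_iff _).2 ⟨_, h1, rfl⟩, (Part.mem_map_iff _).2 ⟨_, h2, ?_⟩⟩
      exact Nat.pair_unpair _
  | @comp f g _ _ hf hg =>
    have h : SF {v : Bool → ℕ | ∃ z, z ∈ g (v false) ∧ v true ∈ f z} := by
      refine SF.exU ?_ ?_
      · exact (hg.mem (A := Option Bool) (SFF.var (some false)) (SFF.var none)).and
          (hf.mem (SFF.var none) (SFF.var (some true)))
      · rintro v y y' ⟨h1, _⟩ ⟨h2, _⟩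
        exact Part.mem_unique h1 h2
    refine h.congr fun v => ?_
    exact Part.mem_bind_iff
  | @prec f g _ _ hf hg =>
    have hR : SF {v : Fin 4 → ℕ | v 3 ∈ g (Nat.pair (v 0) (Nat.pair (v 1) (v 2)))} :=
      hg.mem (SFF.pair (SFF.var 0) (SFF.pair (SFF.var 1) (SFF.var 2))) (SFF.var 3)
    have hI := hiter (fun p i s t => t ∈ g (Nat.pair p (Nat.pair i s))) hR
      (fun p i s t t' h h' => Part.mem_unique h h')
    have h : SF {v : Bool → ℕ | ∃ s, s ∈ f (Nat.unpair (v false)).1 ∧ ∃ q : ℕ → ℕ,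
        q 0 = s ∧ q (Nat.unpair (v false)).2 = v true ∧
        ∀ i < (Nat.unpair (v false)).2,
          q (i + 1) ∈ g (Nat.pair (Nat.unpair (v false)).1 (Nat.pair i (q i)))} := by
      refine SF.exU ?_ ?_
      · refine (hf.mem (A := Option Bool) (SFF.unpair1 (SFF.var (some false)))
          (SFF.var none)).and ?_
        exact comp4 (R := fun p n s t => ∃ q : ℕ → ℕ, q 0 = s ∧ q n = t ∧
          ∀ i < n, q (i + 1) ∈ g (Nat.pair p (Nat.pair i (q i)))) hI
          (SFF.unpair1 (SFF.var (some false))) (SFF.unpair2 (SFF.var (some false)))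
          (SFF.var none) (SFF.var (some true))
      · rintro v y y' ⟨h1, _⟩ ⟨h2, _⟩
        exact Part.mem_unique h1 h2
    refine h.congr fun v => ?_
    exact prec_mem f g (v false) (v true)
  | @rfind f _ hf =>
    have hR : SF {v : Fin 4 → ℕ | v 2 = 0 ∧ v 3 = 0 ∧
        ∃ z, z ∈ f (Nat.pair (v 0) (v 1)) ∧ z ≠ 0} := by
      refine (SF.eq (SFF.var 2) (SFF.const 0)).and ((SF.eq (SFF.var 3) (SFF.const 0)).and ?_)
      refine SF.exU ?_ ?_
      · exact (hf.mem (A := Option (Fin 4)) (SFF.pair (SFF.var (some 0)) (SFF.var (some 1)))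
          (SFF.var none)).and (SF.ne (SFF.var none) (SFF.const 0))
      · rintro v y y' ⟨h1, _⟩ ⟨h2, _⟩
        exact Part.mem_unique h1 h2
    have hI := hiter (fun p i s t => s = 0 ∧ t = 0 ∧ ∃ z, z ∈ f (Nat.pair p i) ∧ z ≠ 0) hR
      (fun p i s t t' h h' => h.2.1.trans h'.2.1.symm)
    have h : SF {v : Bool → ℕ | 0 ∈ f (Nat.pair (v false) (v true)) ∧
        ∃ q : ℕ → ℕ, q 0 = 0 ∧ q (v true) = 0 ∧ ∀ i < v true, q i = 0 ∧ q (i + 1) = 0 ∧
          ∃ z, z ∈ f (Nat.pair (v false) i) ∧ z ≠ 0} := by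
      refine (hf.mem (A := Bool) (SFF.pair (SFF.var false) (SFF.var true)) (SFF.const 0)).and ?_
      exact comp4 (R := fun p n s t => ∃ q : ℕ → ℕ, q 0 = s ∧ q n = t ∧
          ∀ i < n, q i = 0 ∧ q (i + 1) = 0 ∧ ∃ z, z ∈ f (Nat.pair p i) ∧ z ≠ 0) hI
          (SFF.var false) (SFF.var true) (SFF.const 0) (SFF.const 0)
    refine h.congr fun v => ?_
    have e := rfind_mem f (v false) (v true)
    simp only [Set.mem_ofPred_eq]
    refine e.trans ?_
    constructor
    · rintro ⟨h1, h2⟩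
      exact ⟨h1, fun _ => 0, rfl, rfl, fun i hi => ⟨rfl, rfl, h2 i hi⟩⟩
    · rintro ⟨h1, q, _, _, h2⟩
      exact ⟨h1, fun i hi => (h2 i hi).2.2⟩

/-- the encoding of tuples used by `REPred` -/
def encF (n : ℕ) (a : Fin n → ℕ) : ℕ :=
  @Encodable.encode (Fin n → ℕ) (Primcodable.finArrow (α := ℕ) (n := n)).toEncodable a

/-- encoding of tuples -/
theorem SFF.encode_fin (n : ℕ) : SFF (fun a : Fin n → ℕ => encF n a) := by
  have key : ∀ (n : ℕ) (a : Fin n → ℕ), encF n a = Encodable.encode (List.ofFn a) := by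
    intro n a
    have h1 : encF n a = Encodable.encode ((Equiv.vectorEquivFin ℕ n).symm a) := rfl
    rw [h1]
    have h2 : Encodable.encode ((Equiv.vectorEquivFin ℕ n).symm a) =
      Encodable.encode ((Equiv.vectorEquivFin ℕ n).symm a).1 := rfl
    rw [h2]
    congr 1
    exact List.Vector.toList_ofFn a
  refine SFF.congr ?_ (key n)
  induction n with
  | zero =>
    refine (SFF.const 0).congr fun a => ?_
    simp
  | succ n ih =>
    have h := SFF.succ (SFF.pair (SFF.var (A := Fin (n + 1)) 0)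
      (SFF.rename (C := Fin (n + 1)) Fin.succ ih))
    refine h.congr fun a => ?_
    rw [List.ofFn_succ, Encodable.encode_list_cons]
    simp only [Encodable.encode_nat, Nat.succ_eq_add_one]

/-- every recursively enumerable set is single-fold -/
theorem SF.of_re (hiter : IterStmt) {n : ℕ} {S : Set (Fin n → ℕ)}
    (hS : REPred fun a => a ∈ S) : SF S := by
  classical
  letI := (Primcodable.finArrow (α := ℕ) (n := n))
  letI := (Primcodable.finArrow (α := ℕ) (n := n)).toEncodable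
  have h1 : Nat.Partrec fun m => Part.bind
      (@Encodable.decode (Fin n → ℕ) (Primcodable.finArrow (α := ℕ) (n := n)).toEncodable m)
      fun a => (Part.assert (a ∈ S) fun _ => Part.some ()).map Encodable.encode := hS
  have h2 := SFP.of_partrec hiter h1
  refine (h2.mem (SFF.encode_fin n) (SFF.const 0)).congr fun a => ?_
  have e1 : (@Encodable.decode (Fin n → ℕ) (Primcodable.finArrow (α := ℕ) (n := n)).toEncodable
      (encF n a)) = some a := @Encodable.encodek _ _ a
  simp only [Set.mem_ofPred_eq, e1, Part.coe_some, Part.bind_some]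
  constructor
  · intro h
    exact (Part.mem_map_iff _).2 ⟨(), Part.mem_assert_iff.2 ⟨h, Part.mem_some _⟩, rfl⟩
  · intro h
    obtain ⟨_, h3, _⟩ := (Part.mem_map_iff _).1 h
    exact (Part.mem_assert_iff.1 h3).1

/-- assembly: from the single-fold class to the statement -/
theorem exists_poly_of_SF {n : ℕ} {S : Set (Fin n → ℕ)} (h : SF S) :
    ∃ m : ℕ, 1 ≤ m ∧ ∃ P : MvPolynomial (Fin n ⊕ Fin m) ℤ, ∀ a : Fin n → ℕ,
      (a ∈ S → ∃! w : Fin m → ℕ,
        MvPolynomial.eval (Sum.elim (fun i => (a i : ℤ)) (fun j => (w j : ℤ))) P = 0) ∧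
      (a ∉ S → ∀ w : Fin m → ℕ,
        MvPolynomial.eval (Sum.elim (fun i => (a i : ℤ)) (fun j => (w j : ℤ))) P ≠ 0) := by
  -- add a dummy unknown
  have h1 : SF {a : Fin n → ℕ | ∃ c : Unit → ℕ, Sum.elim a c ∈
      {v : Fin n ⊕ Unit → ℕ | (fun i => v (Sum.inl i)) ∈ S ∧ v (Sum.inr ()) = 0}} := by
    refine SF.exC ((SF.rename Sum.inl h).and (SF.eq (SFF.var _) (SFF.const 0))) ?_
    rintro a c c' ⟨_, h2⟩ ⟨_, h3⟩
    funext x
    exact h2.trans h3.symm
  obtain ⟨B, hB, P, hP⟩ := h.toPSF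
  have := Fintype.ofFinite B
  obtain ⟨k, ⟨e⟩⟩ := Finite.exists_equiv_fin B
  -- unknowns `Fin (k + 1)`: `castSucc` the old ones, `last` the dummy
  let P' : MvPolynomial (Fin n ⊕ Fin (k + 1)) ℤ :=
    (MvPolynomial.rename (Sum.map id (fun b => (e b).castSucc)) P) ^ 2 +
      MvPolynomial.X (Sum.inr (Fin.last k)) ^ 2
  have key : ∀ (a : Fin n → ℕ) (w : Fin (k + 1) → ℕ),
      MvPolynomial.eval (Sum.elim (fun i => (a i : ℤ)) (fun j => (w j : ℤ))) P' = 0 ↔
      (MvPolynomial.eval (fun x => ((Sum.elim a (fun b => w (e b).castSucc) x : ℕ) : ℤ)) P = 0 ∧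
        w (Fin.last k) = 0) := by
    intro a w
    simp only [P', map_add, map_pow, MvPolynomial.eval_X, MvPolynomial.eval_rename, Sum.elim_inr]
    have e1 : (Sum.elim (fun i => (a i : ℤ)) (fun j => (w j : ℤ))) ∘
        (Sum.map id fun b => (e b).castSucc) =
        fun x => ((Sum.elim a (fun b => w (e b).castSucc) x : ℕ) : ℤ) := by
      funext x
      rcases x with x | x <;> rfl
    rw [e1]
    constructor
    · intro h
      have h2 := sq_nonneg (MvPolynomial.eval (fun x =>
        ((Sum.elim a (fun b => w (e b).castSucc) x : ℕ) : ℤ)) P)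
      have h3 := sq_nonneg ((w (Fin.last k) : ℤ))
      have h4 : (MvPolynomial.eval (fun x =>
        ((Sum.elim a (fun b => w (e b).castSucc) x : ℕ) : ℤ)) P) ^ 2 = 0 := by linarith
      have h5 : ((w (Fin.last k) : ℤ)) ^ 2 = 0 := by linarith
      exact ⟨by simpa using h4, by simpa using h5⟩
    · rintro ⟨h2, h3⟩
      rw [h2, h3]
      norm_num
  refine ⟨k + 1, by omega, P', fun a => ⟨fun ha => ?_, fun ha w hw => ?_⟩⟩
  · obtain ⟨w, hw⟩ := ((hP a).1).1 ha
    refine ⟨Fin.snoc (fun i : Fin k => w (e.symm i)) 0, ?_, ?_⟩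
    · simp only [key]
      constructor
      · have : (fun b => (Fin.snoc (fun i : Fin k => w (e.symm i)) 0 : Fin (k + 1) → ℕ)
            (e b).castSucc) = w := by
          funext b
          simp
        rw [this]
        exact hw
      · simp
    · intro w' hw'
      simp only [key] at hw'
      have e1 := (hP a).2 _ _ hw'.1 hw
      funext i
      refine Fin.lastCases ?_ (fun i => ?_) i
      · simp [hw'.2]
      · have := congrFun e1 (e.symm i)
        simp only [Equiv.apply_symm_apply] at this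
        simp [this]
  · rw [key] at hw
    exact ha (((hP a).1).2 ⟨_, hw.1⟩)

end Crest.Agent.SFD
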