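import Crest.Agent.SFD.Closure

/-!
# Row 323 (S0500), Part I: single-fold functions of arithmetic (helper65)
-/

set_option autoImplicit false
set_option linter.all false

namespace Crest.Agent.SFD

variable {A C : Type}

theorem SFF.ite {P : (A → ℕ) → Prop} [DecidablePred P] {f g : (A → ℕ) → ℕ}
    (hP : SF {a | P a}) (hN : SF {a | ¬ P a}) (hf : SFF f) (hg : SFF g) :
    SFF (fun a => if P a then f a else g a) := by
  have h1 : SF {v : Option A → ℕ | P (fun a => v (some a))} := SF.rename some hP
  have h2 : SF {v : Option A → ℕ | ¬ P (fun a => v (some a))} := SF.rename some hN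
  refine ((h1.and hf).or (h2.and hg) ?_).congr ?_
  · rintro v ⟨h, _⟩ ⟨h', _⟩
    exact h' h
  · intro v
    simp only [Set.mem_ofPred_eq]
    by_cases h : P (fun a => v (some a))
    · simp [h]
    · simp [h]

theorem SFF.div {f g : (A → ℕ) → ℕ} (hf : SFF f) (hg : SFF g) : SFF (fun a => f a / g a) := by
  have hf1 := SFF.rename (C := Option A) some hf
  have hg1 := SFF.rename (C := Option A) some hg
  have hf2 := SFF.rename (C := Option (Option A)) some hf1
  have hg2 := SFF.rename (C := Option (Option A)) some hg1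
  have h1 : SF {v : Option A → ℕ | ∃ r, r < g (fun a => v (some a)) ∧
      g (fun a => v (some a)) * v none + r = f (fun a => v (some a))} := by
    refine SF.exU ?_ ?_
    · exact (SF.lt (SFF.var none) hg2).and
        (SF.eq ((hg2.mul (SFF.var (some none))).add (SFF.var none)) hf2)
    · rintro v r r' ⟨_, h⟩ ⟨_, h'⟩
      omega
  have h2 : SF {v : Option A → ℕ | g (fun a => v (some a)) = 0 ∧ v none = 0} :=
    (SF.eq hg1 (SFF.const 0)).and (SF.eq (SFF.var none) (SFF.const 0))
  refine (h1.or h2 ?_).congr ?_
  · rintro v ⟨r, hr, _⟩ ⟨h, _⟩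
    omega
  · intro v
    simp only [Set.mem_ofPred_eq]
    rcases Nat.eq_zero_or_pos (g fun a => v (some a)) with h | h
    · simp [h]
    · constructor
      · intro e
        left
        refine ⟨f (fun a => v (some a)) % g (fun a => v (some a)), Nat.mod_lt _ h, ?_⟩
        rw [e]
        exact Nat.div_add_mod _ _
      · rintro (⟨r, hr, e⟩ | ⟨e, _⟩)
        · rw [← e, add_comm, Nat.add_mul_div_left _ _ h, Nat.div_eq_of_lt hr, zero_add]
        · omega

theorem SFF.mod {f g : (A → ℕ) → ℕ} (hf : SFF f) (hg : SFF g) : SFF (fun a => f a % g a) := by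
  have hf1 := SFF.rename (C := Option A) some hf
  have hg1 := SFF.rename (C := Option A) some hg
  refine (SF.eq ((SFF.var none).add (hg1.mul (hf1.div hg1))) hf1).congr ?_
  intro v
  simp only [Set.mem_ofPred_eq]
  have := Nat.mod_add_div (f fun a => v (some a)) (g fun a => v (some a))
  omega

theorem SFF.sub {f g : (A → ℕ) → ℕ} (hf : SFF f) (hg : SFF g) : SFF (fun a => f a - g a) := by
  have hf1 := SFF.rename (C := Option A) some hf
  have hg1 := SFF.rename (C := Option A) some hg
  refine (((SF.le hf1 hg1).and (SF.eq (SFF.var none) (SFF.const 0))).or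
    ((SF.lt hg1 hf1).and (SF.eq ((SFF.var none).add hg1) hf1)) ?_).congr ?_
  · rintro v ⟨h, _⟩ ⟨h', _⟩
    simp only [Set.mem_ofPred_eq] at h h'
    omega
  · intro v
    simp only [Set.mem_ofPred_eq]
    omega

theorem SFF.pair {f g : (A → ℕ) → ℕ} (hf : SFF f) (hg : SFF g) :
    SFF (fun a => Nat.pair (f a) (g a)) := by
  have h := SFF.ite (P := fun a => f a < g a) (SF.lt hf hg)
    ((SF.le hg hf).congr fun a => by simp only [Set.mem_ofPred_eq, not_lt])
    ((hg.mul hg).add hf) (((hf.mul hf).add hf).add hg)
  exact h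

theorem SFF.unpair1 {f : (A → ℕ) → ℕ} (hf : SFF f) : SFF (fun a => (Nat.unpair (f a)).1) := by
  have hf2 := SFF.rename (C := Option (Option A)) (fun a => some (some a)) hf
  have h : SF {v : Option A → ℕ | ∃ z, Nat.pair (v none) z = f (fun a => v (some a))} := by
    refine SF.exU ?_ ?_
    · exact SF.eq (SFF.pair (SFF.var (some none)) (SFF.var none)) hf2
    · intro v y y' h h'
      exact (Nat.pair_eq_pair.1 (h.trans h'.symm)).2
  refine h.congr fun v => ?_
  simp only [Set.mem_ofPred_eq]
  constructor
  · intro e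
    exact ⟨(Nat.unpair (f fun a => v (some a))).2, by rw [e, Nat.pair_unpair]⟩
  · rintro ⟨z, hz⟩
    rw [← hz, Nat.unpair_pair]

theorem SFF.unpair2 {f : (A → ℕ) → ℕ} (hf : SFF f) : SFF (fun a => (Nat.unpair (f a)).2) := by
  have hf2 := SFF.rename (C := Option (Option A)) (fun a => some (some a)) hf
  have h : SF {v : Option A → ℕ | ∃ z, Nat.pair z (v none) = f (fun a => v (some a))} := by
    refine SF.exU ?_ ?_
    · exact SF.eq (SFF.pair (SFF.var none) (SFF.var (some none))) hf2
    · intro v y y' h h'
      exact (Nat.pair_eq_pair.1 (h.trans h'.symm)).1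
  refine h.congr fun v => ?_
  simp only [Set.mem_ofPred_eq]
  constructor
  · intro e
    exact ⟨(Nat.unpair (f fun a => v (some a))).1, by rw [e, Nat.pair_unpair]⟩
  · rintro ⟨z, hz⟩
    rw [← hz, Nat.unpair_pair]

/-- exponentiation of single-fold functions, from the graph -/
theorem SFF.pow (hexp : SF {v : Fin 3 → ℕ | v 2 = v 0 ^ v 1}) {f g : (A → ℕ) → ℕ}
    (hf : SFF f) (hg : SFF g) : SFF (fun a => f a ^ g a) := by
  have h := SF.comp (A := Option A) hexp (f := fun i v => if i = 0 then f (fun a => v (some a)) else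
    if i = 1 then g (fun a => v (some a)) else v none) (by
      intro i
      fin_cases i
      · exact SFF.rename some hf
      · exact SFF.rename some hg
      · exact SFF.var none)
  exact h

end Crest.Agent.SFD
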