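import Crest.Agent.SFD.Defs

/-!
# Row 323 (S0500), Part I: closure properties of single-fold relations (helper65)
-/

set_option autoImplicit false
set_option linter.all false

namespace Crest.Agent.SFD

variable {A C : Type}

theorem Eqn.holds_map {V W : Type} (f : V → W) (e : Eqn V) (v : W → ℕ) :
    (e.map f).Holds v ↔ e.Holds (fun x => v (f x)) := by
  cases e <;> rfl

theorem sat_map {V W : Type} (f : V → W) (E : List (Eqn V)) (v : W → ℕ) :
    Sat (E.map (Eqn.map f)) v ↔ Sat E (fun x => v (f x)) := by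
  simp only [Sat, List.mem_map, forall_exists_index, and_imp, forall_apply_eq_imp_iff₂,
    Eqn.holds_map]

theorem sat_append {V : Type} (E F : List (Eqn V)) (v : V → ℕ) :
    Sat (E ++ F) v ↔ Sat E v ∧ Sat F v := by
  simp only [Sat, List.mem_append]
  constructor
  · exact fun h => ⟨fun e he => h e (Or.inl he), fun e he => h e (Or.inr he)⟩
  · rintro ⟨h1, h2⟩ e (he | he)
    · exact h1 e he
    · exact h2 e he

theorem SF.congr {R S : Set (A → ℕ)} (h : SF R) (e : ∀ a, a ∈ S ↔ a ∈ R) : SF S := by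
  have : S = R := Set.ext e
  rwa [this]

/-- a system of elementary equations -/
theorem SF.of_eqn (E : List (Eqn A)) : SF {a | Sat E a} := by
  refine ⟨Empty, inferInstance, E.map (Eqn.map Sum.inl), fun a => ⟨?_, ?_⟩⟩
  · simp only [sat_map, Set.mem_ofPred_eq, Sum.elim_inl]
    exact ⟨fun h => ⟨Empty.elim, h⟩, fun ⟨_, h⟩ => h⟩
  · intro w w' _ _
    funext x
    exact x.elim

/-- everything -/
theorem SF.univ : SF (Set.univ : Set (A → ℕ)) :=
  (SF.of_eqn ([] : List (Eqn A))).congr fun a => by simp [Sat]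

/-- projection along a finite family of UNIQUE witnesses -/
theorem SF.exC [Finite C] {R : Set (A ⊕ C → ℕ)} (h : SF R)
    (hu : ∀ (a : A → ℕ) (c c' : C → ℕ), Sum.elim a c ∈ R → Sum.elim a c' ∈ R → c = c') :
    SF {a : A → ℕ | ∃ c : C → ℕ, Sum.elim a c ∈ R} := by
  obtain ⟨B, hB, E, hE⟩ := h
  have key : ∀ (a : A → ℕ) (w : C ⊕ B → ℕ),
      Sat (E.map (Eqn.map (Equiv.sumAssoc A C B))) (Sum.elim a w) ↔
        Sat E (Sum.elim (Sum.elim a (fun c => w (Sum.inl c))) (fun b => w (Sum.inr b))) := by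
    intro a w
    rw [sat_map]
    have : (fun x => Sum.elim a w ((Equiv.sumAssoc A C B) x)) =
        Sum.elim (Sum.elim a (fun c => w (Sum.inl c))) (fun b => w (Sum.inr b)) := by
      funext x
      rcases x with (x | x) | x <;> rfl
    rw [this]
  refine ⟨C ⊕ B, inferInstance, E.map (Eqn.map (Equiv.sumAssoc A C B)), fun a => ⟨?_, ?_⟩⟩
  · simp only [Set.mem_ofPred_eq, key]
    constructor
    · rintro ⟨c, hc⟩
      obtain ⟨w, hw⟩ := ((hE _).1).1 hc
      exact ⟨Sum.elim c w, hw⟩
    · rintro ⟨w, hw⟩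
      exact ⟨_, ((hE _).1).2 ⟨_, hw⟩⟩
  · intro w w' h1 h2
    rw [key] at h1 h2
    have e1 : (fun c => w (Sum.inl c)) = fun c => w' (Sum.inl c) :=
      hu a _ _ (((hE _).1).2 ⟨_, h1⟩) (((hE _).1).2 ⟨_, h2⟩)
    rw [← e1] at h2
    have e2 := (hE _).2 _ _ h1 h2
    funext x
    rcases x with x | x
    · exact congrFun e1 x
    · exact congrFun e2 x

/-- substitution of variables -/
theorem SF.rename (e : A → C) {R : Set (A → ℕ)} (h : SF R) :
    SF {v : C → ℕ | (fun a => v (e a)) ∈ R} := by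
  obtain ⟨B, hB, E, hE⟩ := h
  have key : ∀ (v : C → ℕ) (w : B → ℕ),
      Sat (E.map (Eqn.map (Sum.map e id))) (Sum.elim v w) ↔
        Sat E (Sum.elim (fun a => v (e a)) w) := by
    intro a w
    rw [sat_map]
    have : (fun x => Sum.elim a w (Sum.map e id x)) = Sum.elim (fun x => a (e x)) w := by
      funext x
      rcases x with x | x <;> rfl
    rw [this]
  refine ⟨B, hB, E.map (Eqn.map (Sum.map e id)), fun a => ⟨?_, ?_⟩⟩
  · simp only [Set.mem_ofPred_eq, key]
    exact (hE _).1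
  · intro w w' h1 h2
    rw [key] at h1 h2
    exact (hE _).2 _ _ h1 h2

theorem SF.and {R S : Set (A → ℕ)} (h : SF R) (k : SF S) : SF {a | a ∈ R ∧ a ∈ S} := by
  obtain ⟨B, hB, E, hE⟩ := h
  obtain ⟨D, hD, F, hF⟩ := k
  have key1 : ∀ (a : A → ℕ) (w : B ⊕ D → ℕ),
      Sat (E.map (Eqn.map (Sum.map id Sum.inl))) (Sum.elim a w) ↔
        Sat E (Sum.elim a (fun b => w (Sum.inl b))) := by
    intro a w
    rw [sat_map]
    have : (fun x => Sum.elim a w (Sum.map id Sum.inl x)) =
        Sum.elim a (fun b => w (Sum.inl b)) := by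
      funext x
      rcases x with x | x <;> rfl
    rw [this]
  have key2 : ∀ (a : A → ℕ) (w : B ⊕ D → ℕ),
      Sat (F.map (Eqn.map (Sum.map id Sum.inr))) (Sum.elim a w) ↔
        Sat F (Sum.elim a (fun b => w (Sum.inr b))) := by
    intro a w
    rw [sat_map]
    have : (fun x => Sum.elim a w (Sum.map id Sum.inr x)) =
        Sum.elim a (fun b => w (Sum.inr b)) := by
      funext x
      rcases x with x | x <;> rfl
    rw [this]
  refine ⟨B ⊕ D, inferInstance, E.map (Eqn.map (Sum.map id Sum.inl)) ++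
    F.map (Eqn.map (Sum.map id Sum.inr)), fun a => ⟨?_, ?_⟩⟩
  · simp only [Set.mem_ofPred_eq, sat_append, key1, key2, (hE a).1, (hF a).1]
    constructor
    · rintro ⟨⟨w, hw⟩, ⟨w', hw'⟩⟩
      exact ⟨Sum.elim w w', hw, hw'⟩
    · rintro ⟨w, h1, h2⟩
      exact ⟨⟨_, h1⟩, ⟨_, h2⟩⟩
  · intro w w' h1 h2
    simp only [sat_append, key1, key2] at h1 h2
    have e1 := (hE a).2 _ _ h1.1 h2.1
    have e2 := (hF a).2 _ _ h1.2 h2.2
    funext x
    rcases x with x | x
    · exact congrFun e1 x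
    · exact congrFun e2 x

/-- conjunction of a finite family -/
theorem SF.all {ι : Type} [Finite ι] {R : ι → Set (A → ℕ)} (h : ∀ i, SF (R i)) :
    SF {a | ∀ i, a ∈ R i} := by
  classical
  have := Fintype.ofFinite ι
  have h1 : ∀ s : Finset ι, SF {a | ∀ i ∈ s, a ∈ R i} := by
    intro s
    induction s using Finset.induction_on with
    | empty => exact SF.univ.congr fun a => by simp
    | insert i s _ ih =>
      refine ((h i).and ih).congr fun a => ?_
      simp only [Set.mem_ofPred_eq, Finset.mem_insert, forall_eq_or_imp]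
  exact (h1 Finset.univ).congr fun a => by simp

/-- unique witness -/
theorem SF.exU {P : (A → ℕ) → ℕ → Prop}
    (h : SF {v : Option A → ℕ | P (fun a => v (some a)) (v none)})
    (hu : ∀ a y y', P a y → P a y' → y = y') : SF {a | ∃ y, P a y} := by
  have h1 := SF.rename (C := A ⊕ Unit) (fun o : Option A => o.elim (Sum.inr ()) Sum.inl) h
  refine (SF.exC h1 ?_).congr ?_
  · intro a c c' h2 h3
    funext x
    exact hu a _ _ h2 h3
  · intro a
    constructor
    · rintro ⟨y, hy⟩
      exact ⟨fun _ => y, hy⟩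
    · rintro ⟨c, hc⟩
      exact ⟨c (), hc⟩

theorem SFF.rename (e : A → C) {f : (A → ℕ) → ℕ} (h : SFF f) :
    SFF (fun v : C → ℕ => f (fun a => v (e a))) :=
  SF.rename (Option.map e) h

/-- equality of two variables -/
theorem SF.eqVar (x y : A) : SF {v : A → ℕ | v x = v y} := by
  refine ⟨Unit, inferInstance, [.const (Sum.inr ()) 0, .add (Sum.inl x) (Sum.inr ()) (Sum.inl y)],
    fun a => ⟨?_, ?_⟩⟩
  · simp only [Set.mem_ofPred_eq, Sat, List.mem_cons, List.not_mem_nil, or_false, forall_eq_or_imp,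
      forall_eq, Eqn.Holds, Sum.elim_inr, Sum.elim_inl]
    constructor
    · intro h
      exact ⟨fun _ => 0, rfl, by simpa using h⟩
    · rintro ⟨w, h0, h1⟩
      omega
  · intro w w' h1 h2
    funext x
    have e1 := h1 _ (List.mem_cons_self ..)
    have e2 := h2 _ (List.mem_cons_self ..)
    simp only [Eqn.Holds, Sum.elim_inr] at e1 e2
    rw [show x = () from rfl, e1, e2]

theorem SFF.var (x : A) : SFF (fun v : A → ℕ => v x) :=
  SF.eqVar none (some x)

theorem SFF.const (c : ℕ) : SFF (fun _ : A → ℕ => c) :=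
  (SF.of_eqn [Eqn.const none c]).congr fun v => by simp [Sat, Eqn.Holds]

/-- SUBSTITUTION of single-fold functions in a single-fold relation -/
theorem SF.comp [Finite C] {R : Set (C → ℕ)} (h : SF R) {f : C → (A → ℕ) → ℕ}
    (hf : ∀ c, SFF (f c)) : SF {a : A → ℕ | (fun c => f c a) ∈ R} := by
  have h1 : SF {v : A ⊕ C → ℕ | ∀ x : C, v ∈
      {v : A ⊕ C → ℕ | v (Sum.inr x) = f x (fun a => v (Sum.inl a))}} := by
    refine SF.all fun x => ?_
    exact SF.rename (C := A ⊕ C) (fun o : Option A => o.elim (Sum.inr x) Sum.inl) (hf x)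
  have h2 : SF {v : A ⊕ C → ℕ | (fun c => v (Sum.inr c)) ∈ R} := SF.rename Sum.inr h
  refine (SF.exC (h1.and h2) ?_).congr ?_
  · rintro a c c' ⟨h3, _⟩ ⟨h4, _⟩
    funext x
    have e1 := h3 x
    have e2 := h4 x
    simp only [Set.mem_ofPred_eq, Sum.elim_inr, Sum.elim_inl] at e1 e2
    rw [e1, e2]
  · intro a
    constructor
    · intro h3
      exact ⟨fun c => f c a, fun x => rfl, h3⟩
    · rintro ⟨c, h3, h4⟩
      have e : c = fun x => f x a := by
        funext x
        exact h3 x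
      have h5 : (fun x => Sum.elim a c (Sum.inr x)) ∈ R := h4
      simp only [Sum.elim_inr] at h5
      rw [e] at h5
      exact h5

theorem SFF.comp [Finite C] {g : (C → ℕ) → ℕ} (h : SFF g) {f : C → (A → ℕ) → ℕ}
    (hf : ∀ c, SFF (f c)) : SFF (fun a => g (fun c => f c a)) := by
  have h1 := SF.comp (C := Option C) (A := Option A) h
    (f := fun o v => o.elim (v none) (fun c => f c (fun a => v (some a)))) (by
      intro o
      rcases o with _ | c
      · exact SFF.var none
      · exact SFF.rename some (hf c))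
  exact h1

/-- equality of two single-fold functions -/
theorem SF.eq {f g : (A → ℕ) → ℕ} (hf : SFF f) (hg : SFF g) : SF {a | f a = g a} := by
  have h := SF.comp (SF.eqVar false true) (A := A) (f := fun b => if b then g else f) (by
    intro b; cases b <;> simpa)
  exact h

private theorem SFF.addVar : SFF (fun u : Bool → ℕ => u false + u true) :=
  (SF.of_eqn [Eqn.add (some false) (some true) none]).congr fun v => by
    simp only [Sat, Eqn.Holds, Set.mem_ofPred_eq, List.mem_cons, List.not_mem_nil, or_false,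
      forall_eq]
    exact eq_comm

private theorem SFF.mulVar : SFF (fun u : Bool → ℕ => u false * u true) :=
  (SF.of_eqn [Eqn.mul (some false) (some true) none]).congr fun v => by
    simp only [Sat, Eqn.Holds, Set.mem_ofPred_eq, List.mem_cons, List.not_mem_nil, or_false,
      forall_eq]
    exact eq_comm

theorem SFF.add {f g : (A → ℕ) → ℕ} (hf : SFF f) (hg : SFF g) : SFF (fun a => f a + g a) := by
  have h := SFF.comp SFF.addVar (A := A) (f := fun b => if b then g else f) (by
    intro b; cases b <;> simpa)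
  exact h

theorem SFF.mul {f g : (A → ℕ) → ℕ} (hf : SFF f) (hg : SFF g) : SFF (fun a => f a * g a) := by
  have h := SFF.comp SFF.mulVar (A := A) (f := fun b => if b then g else f) (by
    intro b; cases b <;> simpa)
  exact h

theorem SFF.succ {f : (A → ℕ) → ℕ} (hf : SFF f) : SFF (fun a => f a + 1) := hf.add (SFF.const 1)

theorem SFF.npow {f : (A → ℕ) → ℕ} (hf : SFF f) (n : ℕ) : SFF (fun a => f a ^ n) := by
  induction n with
  | zero => simpa using SFF.const 1
  | succ n ih => simpa only [pow_succ] using ih.mul hf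

theorem SFF.sum {ι : Type} (s : Finset ι) {f : ι → (A → ℕ) → ℕ} (hf : ∀ i ∈ s, SFF (f i)) :
    SFF (fun a => ∑ i ∈ s, f i a) := by
  classical
  induction s using Finset.induction_on with
  | empty => simpa using SFF.const 0
  | insert i s hi ih =>
    simp only [Finset.sum_insert hi]
    exact (hf i (Finset.mem_insert_self i s)).add (ih fun j hj => hf j (Finset.mem_insert_of_mem hj))

theorem SFF.congr {f g : (A → ℕ) → ℕ} (hf : SFF f) (h : ∀ a, g a = f a) : SFF g := by
  have : g = f := funext h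
  rwa [this]

/-- a function whose graph (with the value as additional coordinate) is single-fold -/
theorem SFF.of_graph {f : (A → ℕ) → ℕ} {P : (A → ℕ) → ℕ → Prop}
    (h : SF {v : Option A → ℕ | P (fun a => v (some a)) (v none)})
    (e : ∀ a y, P a y ↔ y = f a) : SFF f :=
  h.congr fun v => by
    simp only [Set.mem_ofPred_eq]
    rw [e]

/-- `∃ y` with a unique `y`, where the body is given by `SF` in the enlarged context -/
theorem SF.lt {f g : (A → ℕ) → ℕ} (hf : SFF f) (hg : SFF g) : SF {a | f a < g a} := by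
  refine (SF.exU (P := fun a y => f a + 1 + y = g a) ?_ ?_).congr ?_
  · exact SF.eq (((SFF.rename some hf).succ).add (SFF.var none)) (SFF.rename some hg)
  · intro a y y' h h'
    omega
  · intro a
    simp only [Set.mem_ofPred_eq]
    constructor
    · intro h
      exact ⟨g a - f a - 1, by omega⟩
    · rintro ⟨y, hy⟩
      omega

theorem SF.le {f g : (A → ℕ) → ℕ} (hf : SFF f) (hg : SFF g) : SF {a | f a ≤ g a} :=
  (SF.lt hf hg.succ).congr fun a => by
    simp only [Set.mem_ofPred_eq]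
    omega

/-! ### Polynomial form and disjunction -/

/-- terms -/
inductive Tm (V : Type) : Type
  | var (x : V)
  | const (c : ℕ)
  | add (s t : Tm V)
  | mul (s t : Tm V)

def Tm.eval {V : Type} (v : V → ℕ) : Tm V → ℕ
  | .var x => v x
  | .const c => c
  | .add s t => s.eval v + t.eval v
  | .mul s t => s.eval v * t.eval v

theorem SFF.tm (T : Tm A) : SFF (fun v => T.eval v) := by
  induction T with
  | var x => exact SFF.var x
  | const c => exact SFF.const c
  | add s t hs ht => exact hs.add ht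
  | mul s t hs ht => exact hs.mul ht

theorem exists_tm {V : Type} (P : MvPolynomial V ℤ) : ∃ S T : Tm V, ∀ v : V → ℕ,
    MvPolynomial.eval (fun x => (v x : ℤ)) P = (S.eval v : ℤ) - (T.eval v : ℤ) := by
  induction P using MvPolynomial.induction_on with
  | C a =>
    refine ⟨.const a.toNat, .const (-a).toNat, fun v => ?_⟩
    simp only [MvPolynomial.eval_C, Tm.eval]
    omega
  | add p q hp hq =>
    obtain ⟨S, T, h⟩ := hp
    obtain ⟨S', T', h'⟩ := hq
    refine ⟨.add S S', .add T T', fun v => ?_⟩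
    rw [map_add, h, h']
    simp only [Tm.eval]
    push_cast
    ring
  | mul_X p x hp =>
    obtain ⟨S, T, h⟩ := hp
    refine ⟨.mul S (.var x), .mul T (.var x), fun v => ?_⟩
    rw [map_mul, h, MvPolynomial.eval_X]
    simp only [Tm.eval]
    push_cast
    ring

/-- polynomial form -/
def PSF (R : Set (A → ℕ)) : Prop :=
  ∃ (B : Type) (_ : Finite B) (P : MvPolynomial (A ⊕ B) ℤ), ∀ a : A → ℕ,
    (a ∈ R ↔ ∃ w : B → ℕ, MvPolynomial.eval (fun x => ((Sum.elim a w x : ℕ) : ℤ)) P = 0) ∧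
    (∀ w w' : B → ℕ, MvPolynomial.eval (fun x => ((Sum.elim a w x : ℕ) : ℤ)) P = 0 →
      MvPolynomial.eval (fun x => ((Sum.elim a w' x : ℕ) : ℤ)) P = 0 → w = w')

theorem PSF.toSF {R : Set (A → ℕ)} (h : PSF R) : SF R := by
  obtain ⟨B, hB, P, hP⟩ := h
  obtain ⟨S, T, hST⟩ := exists_tm P
  have h1 : SF {v : A ⊕ B → ℕ | S.eval v = T.eval v} := SF.eq (SFF.tm S) (SFF.tm T)
  have key : ∀ v : A ⊕ B → ℕ, (S.eval v = T.eval v) ↔
      MvPolynomial.eval (fun x => (v x : ℤ)) P = 0 := by
    intro v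
    rw [hST, sub_eq_zero]
    exact Nat.cast_inj.symm
  refine (SF.exC h1 ?_).congr ?_
  · intro a w w' h2 h3
    exact (hP a).2 w w' ((key _).1 h2) ((key _).1 h3)
  · intro a
    rw [(hP a).1]
    constructor
    · rintro ⟨w, hw⟩
      exact ⟨w, (key _).2 hw⟩
    · rintro ⟨w, hw⟩
      exact ⟨w, (key _).1 hw⟩

/-- polynomial of an elementary equation -/
noncomputable def Eqn.poly {V : Type} : Eqn V → MvPolynomial V ℤ
  | .const a c => MvPolynomial.X a - MvPolynomial.C (c : ℤ)
  | .add a b c => MvPolynomial.X a + MvPolynomial.X b - MvPolynomial.X c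
  | .mul a b c => MvPolynomial.X a * MvPolynomial.X b - MvPolynomial.X c

theorem Eqn.poly_eval {V : Type} (e : Eqn V) (v : V → ℕ) :
    MvPolynomial.eval (fun x => (v x : ℤ)) e.poly = 0 ↔ e.Holds v := by
  cases e with
  | const a c =>
    simp only [Eqn.poly, Eqn.Holds, map_sub, MvPolynomial.eval_X, MvPolynomial.eval_C, sub_eq_zero]
    exact Nat.cast_inj
  | add a b c =>
    simp only [Eqn.poly, Eqn.Holds, map_sub, map_add, MvPolynomial.eval_X, sub_eq_zero]
    exact_mod_cast Iff.rfl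
  | mul a b c =>
    simp only [Eqn.poly, Eqn.Holds, map_sub, map_mul, MvPolynomial.eval_X, sub_eq_zero]
    exact_mod_cast Iff.rfl

/-- polynomial of a system -/
noncomputable def sysPoly {V : Type} : List (Eqn V) → MvPolynomial V ℤ
  | [] => 0
  | e :: E => e.poly ^ 2 + sysPoly E

theorem sysPoly_nonneg {V : Type} (E : List (Eqn V)) (v : V → ℕ) :
    0 ≤ MvPolynomial.eval (fun x => (v x : ℤ)) (sysPoly E) := by
  induction E with
  | nil => simp [sysPoly]
  | cons e E ih =>
    simp only [sysPoly, map_add, map_pow]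
    positivity

theorem sysPoly_eval {V : Type} (E : List (Eqn V)) (v : V → ℕ) :
    MvPolynomial.eval (fun x => (v x : ℤ)) (sysPoly E) = 0 ↔ Sat E v := by
  induction E with
  | nil => simp [sysPoly, Sat]
  | cons e E ih =>
    have h0 := sysPoly_nonneg E v
    simp only [sysPoly, map_add, map_pow]
    have h1 : Sat (e :: E) v ↔ e.Holds v ∧ Sat E v := by
      simp only [Sat, List.mem_cons, forall_eq_or_imp]
    rw [h1, ← ih, ← Eqn.poly_eval]
    constructor
    · intro h
      have h2 := sq_nonneg (MvPolynomial.eval (fun x => (v x : ℤ)) e.poly)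
      have h3 : MvPolynomial.eval (fun x => (v x : ℤ)) e.poly ^ 2 = 0 := by linarith
      exact ⟨by simpa using h3, by linarith⟩
    · rintro ⟨h2, h3⟩
      rw [h2, h3]
      norm_num

theorem SF.toPSF {R : Set (A → ℕ)} (h : SF R) : PSF R := by
  obtain ⟨B, hB, E, hE⟩ := h
  refine ⟨B, hB, sysPoly E, fun a => ?_⟩
  simp only [sysPoly_eval]
  exact hE a

/-- DISJOINT disjunction -/
theorem SF.or {R S : Set (A → ℕ)} (h : SF R) (k : SF S) (hd : ∀ a, a ∈ R → a ∈ S → False) :
    SF {a | a ∈ R ∨ a ∈ S} := by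
  obtain ⟨B, hB, P, hP⟩ := h.toPSF
  obtain ⟨D, hD, Q, hQ⟩ := k.toPSF
  have := Fintype.ofFinite B
  have := Fintype.ofFinite D
  let P' : MvPolynomial (A ⊕ (B ⊕ D)) ℤ := MvPolynomial.rename (Sum.map id Sum.inl) P
  let Q' : MvPolynomial (A ⊕ (B ⊕ D)) ℤ := MvPolynomial.rename (Sum.map id Sum.inr) Q
  let T : MvPolynomial (A ⊕ (B ⊕ D)) ℤ :=
    (P' ^ 2 + ∑ d : D, MvPolynomial.X (Sum.inr (Sum.inr d)) ^ 2) *
    (Q' ^ 2 + ∑ b : B, MvPolynomial.X (Sum.inr (Sum.inl b)) ^ 2)
  have kP : ∀ (a : A → ℕ) (w : B ⊕ D → ℕ),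
      MvPolynomial.eval (fun x => ((Sum.elim a w x : ℕ) : ℤ)) P' =
        MvPolynomial.eval (fun x => ((Sum.elim a (fun b => w (Sum.inl b)) x : ℕ) : ℤ)) P := by
    intro a w
    simp only [P', MvPolynomial.eval_rename]
    congr 2
    funext x
    rcases x with x | x <;> rfl
  have kQ : ∀ (a : A → ℕ) (w : B ⊕ D → ℕ),
      MvPolynomial.eval (fun x => ((Sum.elim a w x : ℕ) : ℤ)) Q' =
        MvPolynomial.eval (fun x => ((Sum.elim a (fun b => w (Sum.inr b)) x : ℕ) : ℤ)) Q := by
    intro a w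
    simp only [Q', MvPolynomial.eval_rename]
    congr 2
    funext x
    rcases x with x | x <;> rfl
  have sumsq : ∀ {ι : Type} [Fintype ι] (z : ℤ) (u : ι → ℕ),
      z ^ 2 + ∑ i, (u i : ℤ) ^ 2 = 0 ↔ z = 0 ∧ ∀ i, u i = 0 := by
    intro ι _ z u
    constructor
    · intro h
      have h1 : 0 ≤ ∑ i, (u i : ℤ) ^ 2 := Finset.sum_nonneg fun i _ => sq_nonneg _
      have h2 := sq_nonneg z
      have h3 : z ^ 2 = 0 := by linarith
      have h4 : ∑ i, (u i : ℤ) ^ 2 = 0 := by linarith
      refine ⟨by simpa using h3, fun i => ?_⟩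
      have h5 := (Finset.sum_eq_zero_iff_of_nonneg (fun i _ => sq_nonneg ((u i : ℤ)))).1 h4 i
        (Finset.mem_univ i)
      have h6 : (u i : ℤ) = 0 := by simpa using h5
      exact_mod_cast h6
    · rintro ⟨rfl, h⟩
      simp [h]
  have kT : ∀ (a : A → ℕ) (w : B ⊕ D → ℕ),
      MvPolynomial.eval (fun x => ((Sum.elim a w x : ℕ) : ℤ)) T = 0 ↔
      ((MvPolynomial.eval (fun x => ((Sum.elim a (fun b => w (Sum.inl b)) x : ℕ) : ℤ)) P = 0 ∧
        ∀ d, w (Sum.inr d) = 0) ∨
      (MvPolynomial.eval (fun x => ((Sum.elim a (fun b => w (Sum.inr b)) x : ℕ) : ℤ)) Q = 0 ∧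
        ∀ b, w (Sum.inl b) = 0)) := by
    intro a w
    simp only [T, map_mul, map_add, map_pow, map_sum, MvPolynomial.eval_X, kP, kQ, mul_eq_zero,
      Sum.elim_inr]
    rw [sumsq, sumsq]
  apply PSF.toSF
  refine ⟨B ⊕ D, inferInstance, T, fun a => ⟨?_, ?_⟩⟩
  · simp only [Set.mem_ofPred_eq, kT]
    constructor
    · rintro (h | h)
      · obtain ⟨w, hw⟩ := ((hP a).1).1 h
        exact ⟨Sum.elim w (fun _ => 0), Or.inl ⟨hw, fun _ => rfl⟩⟩
      · obtain ⟨w, hw⟩ := ((hQ a).1).1 h
        exact ⟨Sum.elim (fun _ => 0) w, Or.inr ⟨hw, fun _ => rfl⟩⟩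
    · rintro ⟨w, ⟨h, _⟩ | ⟨h, _⟩⟩
      · exact Or.inl (((hP a).1).2 ⟨_, h⟩)
      · exact Or.inr (((hQ a).1).2 ⟨_, h⟩)
  · intro w w' h1 h2
    rw [kT] at h1 h2
    rcases h1 with ⟨h1, h1'⟩ | ⟨h1, h1'⟩ <;> rcases h2 with ⟨h2, h2'⟩ | ⟨h2, h2'⟩
    · have e1 := (hP a).2 _ _ h1 h2
      funext x
      rcases x with x | x
      · exact congrFun e1 x
      · rw [h1', h2']
    · exact (hd a (((hP a).1).2 ⟨_, h1⟩) (((hQ a).1).2 ⟨_, h2⟩)).elim
    · exact (hd a (((hP a).1).2 ⟨_, h2⟩) (((hQ a).1).2 ⟨_, h1⟩)).elim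
    · have e1 := (hQ a).2 _ _ h1 h2
      funext x
      rcases x with x | x
      · rw [h1', h2']
      · exact congrFun e1 x

theorem SF.ne {f g : (A → ℕ) → ℕ} (hf : SFF f) (hg : SFF g) : SF {a | f a ≠ g a} :=
  ((SF.lt hf hg).or (SF.lt hg hf) (fun a h h' => by
    simp only [Set.mem_ofPred_eq] at h h'; omega)).congr fun a => by
    simp only [Set.mem_ofPred_eq]
    omega

end Crest.Agent.SFD
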