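import Mathlib

/-!
# Row 323 (S0500), Part I: single-fold Diophantine relations, definitions

(helper65, after the blueprint of helper15, idea 517.)  We work over `ℕ` with systems of elementary
equations and an arbitrary finite type of witnesses.
-/

set_option autoImplicit false

namespace Crest.Agent.SFD

/-- elementary equation over a type of variables -/
inductive Eqn (V : Type) : Type
  | const (a : V) (c : ℕ)
  | add (a b c : V)
  | mul (a b c : V)

/-- `const a c : a = c`, `add a b c : a + b = c`, `mul a b c : a * b = c` -/
def Eqn.Holds {V : Type} (v : V → ℕ) : Eqn V → Prop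
  | .const a c => v a = c
  | .add a b c => v a + v b = v c
  | .mul a b c => v a * v b = v c

/-- change of variables -/
def Eqn.map {V W : Type} (f : V → W) : Eqn V → Eqn W
  | .const a c => .const (f a) c
  | .add a b c => .add (f a) (f b) (f c)
  | .mul a b c => .mul (f a) (f b) (f c)

/-- all equations of a list hold -/
def Sat {V : Type} (E : List (Eqn V)) (v : V → ℕ) : Prop := ∀ e ∈ E, e.Holds v

/-- single-fold Diophantine relation -/
def SF {A : Type} (R : Set (A → ℕ)) : Prop :=
  ∃ (B : Type) (_ : Finite B) (E : List (Eqn (A ⊕ B))), ∀ a : A → ℕ,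
    (a ∈ R ↔ ∃ w : B → ℕ, Sat E (Sum.elim a w)) ∧
    (∀ w w' : B → ℕ, Sat E (Sum.elim a w) → Sat E (Sum.elim a w') → w = w')

/-- single-fold function: its graph (value = coordinate `none`) is single-fold -/
def SFF {A : Type} (f : (A → ℕ) → ℕ) : Prop :=
  SF {v : Option A → ℕ | v none = f (fun a => v (some a))}

end Crest.Agent.SFD
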