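import Crest.Agent.SFD.PLfromV

/-!
# Row 323 (S0500), Part II-C: growth of `V n` and Pell indices (helper65)
-/

set_option autoImplicit false
set_option linter.all false

namespace Crest.Agent.SFD

/-- growth data of the sequence `V n = v(nP₁)` -/
structure GData (V : ℕ → ℕ) : Prop where
  V0 : V 0 = 1
  V1 : V 1 = 41
  pos : ∀ n, 0 < V n
  up : ∀ n, V (n + 2) * V n ≤ 2 * 41 ^ 2 * V (n + 1) ^ 2
  lo : ∀ n, 41 ^ 4 * V (n + 1) ^ 4 ≤ 2 * V (n + 2) ^ 2 * V n ^ 2

/-- `2 + √3` -/
noncomputable def lam : ℝ := 2 + Real.sqrt 3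

theorem sqrt3_sq : Real.sqrt 3 * Real.sqrt 3 = 3 := Real.mul_self_sqrt (by norm_num)

theorem sqrt3_lo : (17 / 10 : ℝ) ≤ Real.sqrt 3 := by
  apply Real.le_sqrt_of_sq_le
  norm_num

theorem sqrt3_hi : Real.sqrt 3 ≤ (9 / 5 : ℝ) := by
  apply Real.sqrt_le_iff.2
  norm_num

theorem lam_pow (k : ℕ) : lam ^ k = X k + Y k * Real.sqrt 3 := by
  induction k with
  | zero => simp [X_zero, Y_zero]
  | succ k ih =>
    rw [pow_succ, ih, X_succ, Y_succ]
    unfold lam
    push_cast
    have := sqrt3_sq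
    linear_combination ((Y k : ℕ) : ℝ) * this

theorem lam_pow_le (k : ℕ) : lam ^ k ≤ 2 * X k := by
  rw [lam_pow]
  have h1 := pell k
  have h2 : ((X k : ℕ) : ℝ) * X k = 3 * Y k * Y k + 1 := by exact_mod_cast h1
  have h3 : ((Y k : ℕ) : ℝ) * Real.sqrt 3 ≤ X k := by
    apply abs_le_of_sq_le_sq' _ (by positivity) |>.2
    have := sqrt3_sq
    have e : (((Y k : ℕ) : ℝ) * Real.sqrt 3) ^ 2 = 3 * (Y k : ℝ) * Y k := by
      linear_combination ((Y k : ℕ) : ℝ) ^ 2 * this
    rw [e]
    nlinarith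
  linarith

theorem two_X_le (k : ℕ) : 2 * (X k : ℝ) ≤ lam ^ k + 1 := by
  rw [lam_pow]
  have h1 := pell k
  have h2 : ((X k : ℕ) : ℝ) * X k = 3 * Y k * Y k + 1 := by exact_mod_cast h1
  have h0 : (1 : ℝ) ≤ X k := by exact_mod_cast X_pos k
  have h3 : (X k : ℝ) - 1 ≤ ((Y k : ℕ) : ℝ) * Real.sqrt 3 := by
    apply abs_le_of_sq_le_sq' _ (by positivity) |>.2
    have := sqrt3_sq
    have e : (((Y k : ℕ) : ℝ) * Real.sqrt 3) ^ 2 = 3 * (Y k : ℝ) * Y k := by
      linear_combination ((Y k : ℕ) : ℝ) ^ 2 * this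
    rw [e]
    nlinarith
  linarith

theorem lam_gt : 3 < lam := by
  have := sqrt3_lo
  unfold lam
  linarith

theorem log_lam_pos : 0 < Real.log lam := Real.log_pos (by linarith [lam_gt])

theorem lam_pos : 0 < lam := by linarith [lam_gt]

theorem XY_vals : X 2 = 7 ∧ Y 2 = 4 ∧ X 4 = 97 ∧ Y 4 = 56 ∧ X 8 = 18817 ∧ Y 8 = 10864 ∧
    X 16 = 708158977 ∧ Y 16 = 408855776 ∧ X 32 = 1002978273411373057 := by
  have a1 : X 2 = 7 := by rw [show 2 = 2 * 1 from rfl, X_two_mul, X_one, Y_one]
  have b1 : Y 2 = 4 := by rw [show 2 = 2 * 1 from rfl, Y_two_mul, X_one, Y_one]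
  have a2 : X 4 = 97 := by rw [show 4 = 2 * 2 from rfl, X_two_mul, a1, b1]
  have b2 : Y 4 = 56 := by rw [show 4 = 2 * 2 from rfl, Y_two_mul, a1, b1]
  have a3 : X 8 = 18817 := by rw [show 8 = 2 * 4 from rfl, X_two_mul, a2, b2]
  have b3 : Y 8 = 10864 := by rw [show 8 = 2 * 4 from rfl, Y_two_mul, a2, b2]
  have a4 : X 16 = 708158977 := by rw [show 16 = 2 * 8 from rfl, X_two_mul, a3, b3]
  have b4 : Y 16 = 408855776 := by rw [show 16 = 2 * 8 from rfl, Y_two_mul, a3, b3]
  have a5 : X 32 = 1002978273411373057 := by rw [show 32 = 2 * 16 from rfl, X_two_mul, a4, b4]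
  exact ⟨a1, b1, a2, b2, a3, b3, a4, b4, a5⟩

/-- `(16/3) log λ ≤ 2 log 41 - log 2 / 2` -/
theorem const_lo : 16 / 3 * Real.log lam ≤ 2 * Real.log 41 - Real.log 2 / 2 := by
  have h : lam ^ 32 * 8 ≤ 41 ^ 12 := by
    have h1 := lam_pow_le 32
    rw [XY_vals.2.2.2.2.2.2.2.2] at h1
    push_cast at h1
    have h2 : (2 * 1002978273411373057 : ℝ) * 8 ≤ 41 ^ 12 := by norm_num
    nlinarith
  have h3 : Real.log (lam ^ 32 * 8) ≤ Real.log (41 ^ 12) :=
    Real.log_le_log (by have := lam_pos; positivity) h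
  rw [Real.log_mul (by have := lam_pos; positivity) (by norm_num), Real.log_pow, Real.log_pow,
    show (8 : ℝ) = 2 ^ 3 by norm_num, Real.log_pow] at h3
  push_cast at h3
  linarith

/-- `2 log 41 + log 2 ≤ (25/4) log λ` -/
theorem const_hi : 2 * Real.log 41 + Real.log 2 ≤ 25 / 4 * Real.log lam := by
  have h : (41 ^ 2 * 2 : ℝ) ^ 4 ≤ lam ^ 25 := by
    have e25 : X 25 = X 16 * X 9 + 3 * Y 16 * Y 9 := X_add 16 9
    have f25 : Y 25 = X 16 * Y 9 + Y 16 * X 9 := Y_add 16 9
    have e9 : X 9 = 2 * X 8 + 3 * Y 8 := X_succ 8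
    have f9 : Y 9 = X 8 + 2 * Y 8 := Y_succ 8
    obtain ⟨-, -, -, -, a3, b3, a4, b4, -⟩ := XY_vals
    rw [a3, b3] at e9 f9
    rw [a4, b4, e9, f9] at e25 f25
    rw [lam_pow, e25, f25]
    have := sqrt3_lo
    push_cast
    nlinarith
  have h3 : Real.log ((41 ^ 2 * 2 : ℝ) ^ 4) ≤ Real.log (lam ^ 25) :=
    Real.log_le_log (by positivity) h
  rw [Real.log_pow, Real.log_pow, Real.log_mul (by norm_num) (by norm_num), Real.log_pow] at h3
  push_cast at h3
  linarith

/-- `F n = log (2 V n) / log λ` -/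
noncomputable def FF (V : ℕ → ℕ) (n : ℕ) : ℝ := Real.log (2 * V n) / Real.log lam

theorem exists_kk (v : ℕ) (hv : 0 < v) : ∃ k, X k ≤ v ∧ v < X (k + 1) := by
  classical
  have h : ∃ k, v < X (k + 1) := ⟨v, (lt_X v).trans (X_strictMono (Nat.lt_succ_self v))⟩
  refine ⟨Nat.find h, ?_, Nat.find_spec h⟩
  rcases Nat.eq_zero_or_pos (Nat.find h) with h0 | h0
  · rw [h0, X_zero]
    exact hv
  · have h1 := Nat.find_min h (Nat.sub_lt h0 one_pos)
    rw [show Nat.find h - 1 + 1 = Nat.find h by omega] at h1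
    exact not_lt.1 h1

theorem kk_bounds {v k : ℕ} (hv : 0 < v) (h1 : X k ≤ v) (h2 : v < X (k + 1)) :
    (k : ℝ) ≤ Real.log (2 * v) / Real.log lam ∧ Real.log (2 * v) / Real.log lam ≤ k + 1 := by
  have hl := log_lam_pos
  have hv' : (0 : ℝ) < v := by exact_mod_cast hv
  constructor
  · rw [le_div_iff₀ hl, ← Real.log_pow]
    apply Real.log_le_log (pow_pos lam_pos k)
    refine (lam_pow_le k).trans ?_
    have : ((X k : ℕ) : ℝ) ≤ v := by exact_mod_cast h1
    linarith
  · rw [div_le_iff₀ hl]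
    have h3 : (2 * v : ℝ) ≤ lam ^ (k + 1) := by
      have h4 := two_X_le (k + 1)
      have h5 : (v : ℝ) + 1 ≤ X (k + 1) := by exact_mod_cast h2
      linarith
    have h6 := Real.log_le_log (by positivity) h3
    rw [Real.log_pow] at h6
    push_cast at h6
    exact h6

section main
variable {V : ℕ → ℕ} (g : GData V)
include g

theorem GData.second (n : ℕ) : 16 / 3 ≤ FF V (n + 2) - 2 * FF V (n + 1) + FF V n ∧
    FF V (n + 2) - 2 * FF V (n + 1) + FF V n ≤ 25 / 4 := by
  have hl := log_lam_pos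
  have p0 : (0 : ℝ) < V n := by exact_mod_cast g.pos n
  have p1 : (0 : ℝ) < V (n + 1) := by exact_mod_cast g.pos (n + 1)
  have p2 : (0 : ℝ) < V (n + 2) := by exact_mod_cast g.pos (n + 2)
  have e : FF V (n + 2) - 2 * FF V (n + 1) + FF V n =
      (Real.log (V (n + 2)) - 2 * Real.log (V (n + 1)) + Real.log (V n)) / Real.log lam := by
    unfold FF
    rw [Real.log_mul (by norm_num) p2.ne', Real.log_mul (by norm_num) p1.ne',
      Real.log_mul (by norm_num) p0.ne']
    field_simp
    ring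
  have hup : Real.log (V (n + 2)) + Real.log (V n) ≤
      Real.log 2 + 2 * Real.log 41 + 2 * Real.log (V (n + 1)) := by
    have h : ((V (n + 2) : ℕ) : ℝ) * V n ≤ 2 * 41 ^ 2 * (V (n + 1) : ℝ) ^ 2 := by
      exact_mod_cast g.up n
    have h1 := Real.log_le_log (by positivity) h
    rw [Real.log_mul p2.ne' p0.ne', Real.log_mul (by positivity) (by positivity),
      Real.log_mul (by norm_num) (by norm_num), Real.log_pow, Real.log_pow] at h1
    push_cast at h1
    linarith
  have hlo : 4 * Real.log 41 + 4 * Real.log (V (n + 1)) ≤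
      Real.log 2 + 2 * Real.log (V (n + 2)) + 2 * Real.log (V n) := by
    have h : (41 : ℝ) ^ 4 * (V (n + 1) : ℝ) ^ 4 ≤ 2 * (V (n + 2) : ℝ) ^ 2 * (V n : ℝ) ^ 2 := by
      exact_mod_cast g.lo n
    have h1 := Real.log_le_log (by positivity) h
    rw [Real.log_mul (by positivity) (by positivity), Real.log_mul (by positivity) (by positivity),
      Real.log_mul (by norm_num) (by positivity), Real.log_pow, Real.log_pow, Real.log_pow,
      Real.log_pow] at h1
    push_cast at h1
    linarith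
  have c1 := const_lo
  have c2 := const_hi
  rw [e]
  constructor
  · rw [le_div_iff₀ hl]
    linarith
  · rw [div_le_iff₀ hl]
    linarith

theorem GData.F0 : 0 ≤ FF V 0 ∧ FF V 0 ≤ 1 := by
  have hl := log_lam_pos
  unfold FF
  rw [g.V0]
  constructor
  · apply div_nonneg _ hl.le
    apply Real.log_nonneg
    norm_num
  · rw [div_le_iff₀ hl, one_mul]
    apply Real.log_le_log (by norm_num)
    have := lam_gt
    push_cast
    linarith

theorem GData.D0 : 2 ≤ FF V 1 - FF V 0 ∧ FF V 1 - FF V 0 ≤ 3 := by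
  have hl := log_lam_pos
  have e : FF V 1 - FF V 0 = Real.log 41 / Real.log lam := by
    unfold FF
    rw [g.V0, g.V1]
    push_cast
    rw [Real.log_mul (by norm_num) (by norm_num), mul_one]
    ring
  rw [e]
  have s1 := sqrt3_lo
  have s2 := sqrt3_hi
  constructor
  · rw [le_div_iff₀ hl]
    have h : lam ^ 2 ≤ 41 := by
      unfold lam
      nlinarith
    have h1 := Real.log_le_log (pow_pos lam_pos 2) h
    rw [Real.log_pow] at h1
    push_cast at h1
    exact h1
  · rw [div_le_iff₀ hl]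
    have h : (41 : ℝ) ≤ lam ^ 3 := by
      have := lam_pow 3
      rw [this]
      have e3 : X 3 = 26 := by
        rw [show 3 = 2 + 1 from rfl, X_succ, XY_vals.1, XY_vals.2.1]
      have f3 : Y 3 = 15 := by
        rw [show 3 = 2 + 1 from rfl, Y_succ, XY_vals.1, XY_vals.2.1]
      rw [e3, f3]
      push_cast
      linarith
    have h1 := Real.log_le_log (by norm_num) h
    rw [Real.log_pow] at h1
    push_cast at h1
    exact h1

theorem GData.diff (n : ℕ) : 2 + 16 / 3 * (n : ℝ) ≤ FF V (n + 1) - FF V n ∧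
    FF V (n + 1) - FF V n ≤ 3 + 25 / 4 * (n : ℝ) := by
  induction n with
  | zero =>
    have := g.D0
    simpa using this
  | succ n ih =>
    have h := g.second n
    push_cast
    constructor <;> linarith [h.1, h.2, ih.1, ih.2]

theorem GData.bound (n : ℕ) : 2 * (n : ℝ) + 8 / 3 * (n * (n - 1)) ≤ FF V n ∧
    FF V n ≤ 1 + 3 * n + 25 / 8 * (n * (n - 1)) := by
  induction n with
  | zero =>
    have := g.F0
    simpa using this
  | succ n ih =>
    have h := g.diff n
    push_cast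
    constructor <;> nlinarith [h.1, h.2, ih.1, ih.2]

/-- all the index facts -/
theorem GData.vdata (hsf : SF {v : Fin 3 → ℕ | ∃ n, 1 ≤ n ∧ v 0 = V n ∧ v 1 = V (n + 1) ∧
    v 2 = V (n + 2)}) : ∃ kk : ℕ → ℕ, VData V kk 400 := by
  have hk := fun n => exists_kk (V n) (g.pos n)
  choose kk h1 h2 using hk
  have hb : ∀ n, (kk n : ℝ) ≤ FF V n ∧ FF V n ≤ kk n + 1 := fun n =>
    kk_bounds (g.pos n) (h1 n) (h2 n)
  -- `V` is strictly increasing
  have hmono : StrictMono V := by
    apply strictMono_nat_of_lt_succ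
    intro n
    have hd := (g.diff n).1
    have hl := log_lam_pos
    have p0 : (0 : ℝ) < V n := by exact_mod_cast g.pos n
    have p1 : (0 : ℝ) < V (n + 1) := by exact_mod_cast g.pos (n + 1)
    have h3 : FF V n < FF V (n + 1) := by
      have : (0 : ℝ) ≤ n := Nat.cast_nonneg n
      linarith
    unfold FF at h3
    rw [div_lt_div_iff_of_pos_right hl, Real.log_lt_log_iff (by positivity) (by positivity)] at h3
    have h4 : (V n : ℝ) < V (n + 1) := by linarith
    exact_mod_cast h4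
  -- `t n = kk (n+1) - kk n` is strictly increasing
  have hstep : ∀ n, kk (n + 1) + kk (n + 1) + 4 ≤ kk (n + 2) + kk n := by
    intro n
    have hs := (g.second n).1
    have b0 := hb n
    have b1 := hb (n + 1)
    have b2 := hb (n + 2)
    have h3 : (kk (n + 1) : ℝ) + kk (n + 1) + 3 < kk (n + 2) + kk n := by
      linarith [b0.1, b0.2, b1.1, b1.2, b2.1, b2.2]
    have h4 : kk (n + 1) + kk (n + 1) + 3 < kk (n + 2) + kk n := by exact_mod_cast h3
    omega
  have hkmono : ∀ n, kk n + 1 ≤ kk (n + 1) := by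
    intro n
    have hd := (g.diff n).1
    have b0 := hb n
    have b1 := hb (n + 1)
    have hn : (0 : ℝ) ≤ n := Nat.cast_nonneg n
    have h3 : (kk n : ℝ) < kk (n + 1) := by linarith [b0.1, b0.2, b1.1, b1.2]
    have h4 : kk n < kk (n + 1) := by exact_mod_cast h3
    omega
  -- the difference sequence
  set t : ℕ → ℕ := fun n => kk (n + 1) - kk n with ht
  have htk : ∀ n, t n + kk n = kk (n + 1) := by
    intro n
    have := hkmono n
    simp only [ht]
    omega
  have htmono : StrictMono t := by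
    apply strictMono_nat_of_lt_succ
    intro n
    have a := hstep n
    have b := htk n
    have c := htk (n + 1)
    have d : kk (n + 1 + 1) = kk (n + 2) := rfl
    omega
  have tcond : ∀ l n, (kk (n + 1) ≤ l + kk n ∧ l + kk (n + 1) < kk (n + 2)) ↔
      (t n ≤ l ∧ l < t (n + 1)) := by
    intro l n
    have b := htk n
    have c := htk (n + 1)
    have d : kk (n + 1 + 1) = kk (n + 2) := rfl
    omega
  have hsize : ∀ l n : ℕ, 400 ≤ l → kk (n + 1) ≤ l + kk n → l + kk (n + 1) < kk (n + 2) →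
      l * (l + 1) ≤ 16 * kk n ∧ 16 * kk n < 2 * (l * (l + 1)) := by
    intro l n hl j1 j2
    have b0 := hb n
    have b1 := hb (n + 1)
    have b2 := hb (n + 2)
    have d0 := g.diff n
    have d1 := g.diff (n + 1)
    have j1' : (kk (n + 1) : ℝ) ≤ l + kk n := by exact_mod_cast j1
    have j2' : (l : ℝ) + kk (n + 1) < kk (n + 2) := by exact_mod_cast j2
    have hl' : (400 : ℝ) ≤ l := by exact_mod_cast hl
    push_cast at d1
    have d : FF V (n + 1 + 1) = FF V (n + 2) := rfl
    rw [d] at d1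
    have l1 : 16 / 3 * (n : ℝ) + 1 ≤ l := by linarith [b0.1, b0.2, b1.1, b1.2, d0.1]
    have l2 : (l : ℝ) ≤ 25 / 4 * n + 41 / 4 := by linarith [b1.1, b1.2, b2.1, b2.2, d1.2]
    have hn : (62 : ℝ) ≤ n := by linarith
    have bb := g.bound n
    constructor
    · have h5 : (l : ℝ) * (l + 1) ≤ 16 * kk n := by
        have h6 : (l : ℝ) * (l + 1) ≤ (25 / 4 * n + 41 / 4) * (25 / 4 * n + 45 / 4) := by
          apply mul_le_mul l2 (by linarith) (by linarith) (by linarith)
        have h7 : (25 / 4 * (n : ℝ) + 41 / 4) * (25 / 4 * n + 45 / 4) ≤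
            16 * (2 * (n : ℝ) + 8 / 3 * (n * (n - 1)) - 1) := by
          nlinarith
        linarith [bb.1, b0.2]
      exact_mod_cast h5
    · have h5 : 16 * (kk n : ℝ) < 2 * (l * (l + 1)) := by
        have h6 : (16 / 3 * (n : ℝ) + 1) * (16 / 3 * (n : ℝ) + 2) ≤ l * (l + 1) := by
          apply mul_le_mul l1 (by linarith) (by linarith) (by linarith)
        have h7 : 16 * (1 + 3 * (n : ℝ) + 25 / 8 * (n * (n - 1))) <
            2 * ((16 / 3 * (n : ℝ) + 1) * (16 / 3 * (n : ℝ) + 2)) := by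
          nlinarith
        linarith [bb.2, b0.1]
      exact_mod_cast h5
  refine ⟨kk, ?_⟩
  exact {
    sf := hsf
    inj := fun m n _ _ h => hmono.injective h
    kk_le := fun n _ => h1 n
    lt_kk := fun n _ => h2 n
    ex := by
      intro l hl
      -- the least `n ≥ 1` with `l < t (n+1)`
      classical
      have h3 : ∃ n, l < t (n + 2) := ⟨l, lt_of_lt_of_le (by omega : l < l + 2)
        (htmono.id_le (l + 2))⟩
      have h4 := Nat.find_spec h3
      rcases Nat.eq_zero_or_pos (Nat.find h3) with h0 | h0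
      · -- `t 1 ≤ 400`
        refine ⟨1, le_rfl, (tcond l 1).2 ⟨?_, ?_⟩⟩
        · have d1 := (g.diff 1).2
          have b1 := hb 1
          have b2 := hb 2
          have h5 : (kk 2 : ℝ) ≤ kk 1 + 400 := by
            push_cast at d1
            have : FF V (1 + 1) = FF V 2 := rfl
            rw [this] at d1
            linarith [b1.1, b1.2, b2.1, b2.2]
          have h6 : kk 2 ≤ kk 1 + 400 := by exact_mod_cast h5
          have h7 := htk 1
          have h8 : kk (1 + 1) = kk 2 := rfl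
          omega
        · rw [h0] at h4
          exact h4
      · refine ⟨Nat.find h3 + 1, by omega, (tcond l _).2 ⟨?_, h4⟩⟩
        have h5 := Nat.find_min h3 (Nat.sub_lt h0 one_pos)
        rw [show Nat.find h3 - 1 + 2 = Nat.find h3 + 1 by omega] at h5
        exact not_lt.1 h5
    uniq := by
      intro l _ m n _ _ a1 a2 a3 a4
      have q1 := (tcond l m).1 ⟨a1, a2⟩
      have q2 := (tcond l n).1 ⟨a3, a4⟩
      have c1 : m < n + 1 := htmono.lt_iff_lt.1 (q1.1.trans_lt q2.2)
      have c2 : n < m + 1 := htmono.lt_iff_lt.1 (q2.1.trans_lt q1.2)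
      omega
    lo := fun l hl n _ j1 j2 => (hsize l n hl j1 j2).1
    hi := fun l hl n _ j1 j2 => (hsize l n hl j1 j2).2
    two_le := by norm_num }

end main

/-- II-C/II-D: exponentiation is single-fold, from the growth data and the single-fold triples -/
theorem exp_SF_of_GData {V : ℕ → ℕ} (g : GData V)
    (hsf : SF {v : Fin 3 → ℕ | ∃ n, 1 ≤ n ∧ v 0 = V n ∧ v 1 = V (n + 1) ∧ v 2 = V (n + 2)}) :
    SF {v : Fin 3 → ℕ | v 2 = v 0 ^ v 1} := by
  obtain ⟨kk, h⟩ := g.vdata hsf
  exact exp_SF_of_VData h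

end Crest.Agent.SFD
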