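import Crest.Agent.SFD.PellX

/-!
# Row 323 (S0500), Part II-C: the indexed Pell relation from the sequence `V` (helper65)
-/

set_option autoImplicit false
set_option linter.all false

namespace Crest.Agent.SFD

/-- what Part II-C needs from the elliptic curve: the sequence `V n = v(nP₁)`, its Pell index `kk n`, the threshold `L` -/
structure VData (V kk : ℕ → ℕ) (L : ℕ) : Prop where
  sf : SF {v : Fin 3 → ℕ | ∃ n, 1 ≤ n ∧ v 0 = V n ∧ v 1 = V (n + 1) ∧ v 2 = V (n + 2)}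
  inj : ∀ m n, 1 ≤ m → 1 ≤ n → V m = V n → m = n
  kk_le : ∀ n, 1 ≤ n → X (kk n) ≤ V n
  lt_kk : ∀ n, 1 ≤ n → V n < X (kk n + 1)
  ex : ∀ l, L ≤ l → ∃ n, 1 ≤ n ∧ kk (n + 1) ≤ l + kk n ∧ l + kk (n + 1) < kk (n + 2)
  uniq : ∀ l, L ≤ l → ∀ m n, 1 ≤ m → 1 ≤ n → kk (m + 1) ≤ l + kk m → l + kk (m + 1) < kk (m + 2) →
    kk (n + 1) ≤ l + kk n → l + kk (n + 1) < kk (n + 2) → m = n
  lo : ∀ l, L ≤ l → ∀ n, 1 ≤ n → kk (n + 1) ≤ l + kk n → l + kk (n + 1) < kk (n + 2) →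
    l * (l + 1) ≤ 16 * kk n
  hi : ∀ l, L ≤ l → ∀ n, 1 ≤ n → kk (n + 1) ≤ l + kk n → l + kk (n + 1) < kk (n + 2) →
    16 * kk n < 2 * (l * (l + 1))
  two_le : 2 ≤ L

/-- one doubling of the index -/
def dX (a b : ℕ) : ℕ := a * a + 3 * b * b
def dY (a b : ℕ) : ℕ := 2 * (a * b)

/-- `X_{16 k}` from `(X_k, Y_k)` -/
def X16 (a b : ℕ) : ℕ :=
  dX (dX (dX (dX a b) (dY a b)) (dY (dX a b) (dY a b)))
    (dY (dX (dX a b) (dY a b)) (dY (dX a b) (dY a b)))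

theorem X16_eq (k : ℕ) : X16 (X k) (Y k) = X (16 * k) := by
  have e : ∀ k, dX (X k) (Y k) = X (2 * k) := fun k => (X_two_mul k).symm
  have f : ∀ k, dY (X k) (Y k) = Y (2 * k) := fun k => (Y_two_mul k).symm
  unfold X16
  rw [e, f, e, f, e, f, e]
  congr 1
  ring

theorem SFF.dX {A : Type} {f g : (A → ℕ) → ℕ} (hf : SFF f) (hg : SFF g) :
    SFF (fun a => Crest.Agent.SFD.dX (f a) (g a)) :=
  (hf.mul hf).add (((SFF.const 3).mul hg).mul hg)

theorem SFF.dY {A : Type} {f g : (A → ℕ) → ℕ} (hf : SFF f) (hg : SFF g) :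
    SFF (fun a => Crest.Agent.SFD.dY (f a) (g a)) :=
  (SFF.const 2).mul (hf.mul hg)

theorem SFF.X16 {A : Type} {f g : (A → ℕ) → ℕ} (hf : SFF f) (hg : SFF g) :
    SFF (fun a => Crest.Agent.SFD.X16 (f a) (g a)) := by
  have x1 := hf.dX hg
  have y1 := hf.dY hg
  have x2 := x1.dX y1
  have y2 := x1.dY y1
  exact (x2.dX y2).dX (x2.dY y2)

/-- `(a, b)` is the Pell pair with the largest `X ≤ v` -/
def PellBelow (v a b : ℕ) : Prop := a * a = 3 * b * b + 1 ∧ a ≤ v ∧ v < 2 * a + 3 * b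

theorem SF.pellBelow {A : Type} {f g h : (A → ℕ) → ℕ} (hf : SFF f) (hg : SFF g) (hh : SFF h) :
    SF {a | PellBelow (f a) (g a) (h a)} :=
  (SF.eq (hg.mul hg) ((((SFF.const 3).mul hh).mul hh).add (SFF.const 1))).and
    ((SF.le hg hf).and (SF.lt hf (((SFF.const 2).mul hg).add ((SFF.const 3).mul hh))))

theorem PellBelow.eq {v a b k : ℕ} (h : PellBelow v a b) (h1 : X k ≤ v) (h2 : v < X (k + 1)) :
    a = X k ∧ b = Y k := by
  obtain ⟨e, h3, h4⟩ := h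
  obtain ⟨m, rfl, rfl⟩ := eq_pell e
  rw [← X_succ] at h4
  have h5 : m < k + 1 := X_strictMono.lt_iff_lt.1 (h3.trans_lt h2)
  have h6 : k < m + 1 := X_strictMono.lt_iff_lt.1 (h1.trans_lt h4)
  have : m = k := by omega
  subst this
  exact ⟨rfl, rfl⟩

theorem PellBelow.mk {v k : ℕ} (h1 : X k ≤ v) (h2 : v < X (k + 1)) :
    PellBelow v (X k) (Y k) :=
  ⟨pell k, h1, by rwa [← X_succ]⟩

/-- the matrix of the relation: variables `l, x, y`; unknowns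
`0,1,2 ↦ V_n, V_{n+1}, V_{n+2}`, `3,4 | 5,6 | 7,8 ↦` Pell pairs of the indices `kk n, kk (n+1), kk (n+2)`,
`9,10 ↦ X_{l(l+1)}, Y_{l(l+1)}` -/
def Mat (V : ℕ → ℕ) (L : ℕ) (l x y : ℕ) (c : Fin 11 → ℕ) : Prop :=
  (∃ n, 1 ≤ n ∧ c 0 = V n ∧ c 1 = V (n + 1) ∧ c 2 = V (n + 2)) ∧
  PellBelow (c 0) (c 3) (c 4) ∧ PellBelow (c 1) (c 5) (c 6) ∧ PellBelow (c 2) (c 7) (c 8) ∧
  x * x = 3 * y * y + 1 ∧ X L ≤ x ∧
  c 5 ≤ x * c 3 + 3 * y * c 4 ∧ x * c 5 + 3 * y * c 6 < c 7 ∧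
  c 9 * c 9 = 3 * c 10 * c 10 + 1 ∧ c 10 % (y * (x + 2 * y)) = 0 ∧ 0 < c 10 ∧
  c 9 ≤ X16 (c 3) (c 4) ∧ l + 1 = c 10 / y % (x - 1)

theorem Mat.sf {V kk : ℕ → ℕ} {L : ℕ} (h : VData V kk L) :
    SF {v : Fin 3 ⊕ Fin 11 → ℕ | Mat V L (v (Sum.inl 0)) (v (Sum.inl 1)) (v (Sum.inl 2))
      (fun i => v (Sum.inr i))} := by
  have l : SFF (fun v : Fin 3 ⊕ Fin 11 → ℕ => v (Sum.inl 0)) := SFF.var _
  have x : SFF (fun v : Fin 3 ⊕ Fin 11 → ℕ => v (Sum.inl 1)) := SFF.var _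
  have y : SFF (fun v : Fin 3 ⊕ Fin 11 → ℕ => v (Sum.inl 2)) := SFF.var _
  have c : ∀ i : Fin 11, SFF (fun v : Fin 3 ⊕ Fin 11 → ℕ => v (Sum.inr i)) := fun i => SFF.var _
  have hV : SF {v : Fin 3 ⊕ Fin 11 → ℕ | ∃ n, 1 ≤ n ∧ v (Sum.inr 0) = V n ∧
      v (Sum.inr 1) = V (n + 1) ∧ v (Sum.inr 2) = V (n + 2)} := by
    have := SF.comp (A := Fin 3 ⊕ Fin 11) h.sf
      (f := ![fun v => v (Sum.inr 0), fun v => v (Sum.inr 1), fun v => v (Sum.inr 2)]) (by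
      intro i
      fin_cases i
      · exact c 0
      · exact c 1
      · exact c 2)
    exact this
  have three : SFF (fun _ : Fin 3 ⊕ Fin 11 → ℕ => 3) := SFF.const 3
  refine (hV.and ((SF.pellBelow (c 0) (c 3) (c 4)).and ((SF.pellBelow (c 1) (c 5) (c 6)).and
    ((SF.pellBelow (c 2) (c 7) (c 8)).and
    ((SF.eq (x.mul x) (((three.mul y).mul y).add (SFF.const 1))).and
    ((SF.le (SFF.const (X L)) x).and
    ((SF.le (c 5) ((x.mul (c 3)).add ((three.mul y).mul (c 4)))).and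
    ((SF.lt ((x.mul (c 5)).add ((three.mul y).mul (c 6))) (c 7)).and
    ((SF.eq ((c 9).mul (c 9)) (((three.mul (c 10)).mul (c 10)).add (SFF.const 1))).and
    ((SF.eq ((c 10).mod (y.mul (x.add ((SFF.const 2).mul y)))) (SFF.const 0)).and
    ((SF.lt (SFF.const 0) (c 10)).and
    ((SF.le (c 9) (SFF.X16 (c 3) (c 4))).and
    (SF.eq (l.add (SFF.const 1)) (((c 10).div y).mod (x.sub (SFF.const 1)))))))))))))))).congr
    fun v => Iff.rfl

/-- all unknowns are determined; and the relation is the indexed Pell relation -/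
theorem Mat.char {V kk : ℕ → ℕ} {L : ℕ} (h : VData V kk L) {l x y : ℕ} {c : Fin 11 → ℕ}
    (hM : Mat V L l x y c) : L ≤ l ∧ x = X l ∧ y = Y l ∧ ∃ n, 1 ≤ n ∧ kk (n + 1) ≤ l + kk n ∧
      l + kk (n + 1) < kk (n + 2) ∧
      c = ![V n, V (n + 1), V (n + 2), X (kk n), Y (kk n), X (kk (n + 1)), Y (kk (n + 1)),
        X (kk (n + 2)), Y (kk (n + 2)), X (l * (l + 1)), Y (l * (l + 1))] := by
  obtain ⟨⟨n, hn, e0, e1, e2⟩, p0, p1, p2, hxy, hxL, hi1, hi2, hpq, hdvd, hpos, hle, hl⟩ := hM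
  rw [e0] at p0
  rw [e1] at p1
  rw [e2] at p2
  obtain ⟨a0, b0⟩ := p0.eq (h.kk_le n hn) (h.lt_kk n hn)
  obtain ⟨a1, b1⟩ := p1.eq (h.kk_le (n + 1) (by omega)) (h.lt_kk (n + 1) (by omega))
  obtain ⟨a2, b2⟩ := p2.eq (h.kk_le (n + 2) (by omega)) (h.lt_kk (n + 2) (by omega))
  obtain ⟨k, rfl, rfl⟩ := eq_pell hxy
  have hLk : L ≤ k := X_strictMono.le_iff_le.1 hxL
  obtain ⟨m, ep, eq⟩ := eq_pell hpq
  rw [a1, a0, b0, ← X_add] at hi1
  rw [a1, b1, a2, ← X_add] at hi2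
  have j1 : kk (n + 1) ≤ k + kk n := X_strictMono.le_iff_le.1 hi1
  have j2 : k + kk (n + 1) < kk (n + 2) := X_strictMono.lt_iff_lt.1 hi2
  rw [← Y_succ, eq] at hdvd
  rw [ep, a0, b0, X16_eq] at hle
  have hm16 : m ≤ 16 * kk n := X_strictMono.le_iff_le.1 hle
  have hd : Y k * Y (k + 1) ∣ Y m := Nat.dvd_of_mod_eq_zero hdvd
  have d1 : k ∣ m := (Y_dvd_iff _ _).1 ((Dvd.intro _ rfl).trans hd)
  have d2 : k + 1 ∣ m := (Y_dvd_iff _ _).1 ((Dvd.intro_left _ rfl).trans hd)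
  have d3 : k * (k + 1) ∣ m :=
    Nat.Coprime.mul_dvd_of_dvd_of_dvd ((Nat.coprime_self_add_right).2 (Nat.coprime_one_right k)) d1 d2
  have hm0 : 0 < m := by
    rw [eq] at hpos
    rcases Nat.eq_zero_or_pos m with h0 | h0
    · subst h0
      rw [Y_zero] at hpos
      omega
    · exact h0
  have hhi := h.hi k hLk n hn j1 j2
  have hmk : m = k * (k + 1) := by
    obtain ⟨r, hr⟩ := d3
    have hk2 := h.two_le
    have hr0 : r ≠ 0 := by
      rintro rfl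
      omega
    have hr2 : r < 2 := by
      by_contra hc
      have : 2 * (k * (k + 1)) ≤ k * (k + 1) * r := by
        rw [mul_comm]
        exact Nat.mul_le_mul_left _ (by omega)
      omega
    have : r = 1 := by omega
    rw [hr, this, mul_one]
  have hk0 : 0 < k := by have := h.two_le; omega
  have hlk : l = k := by
    rw [eq, hmk, Y_mul_mod hk0] at hl
    have h1 : k + 1 < X k - 1 := by
      have h2 : k - 1 < X (k - 1) := lt_X _
      obtain ⟨j, rfl⟩ : ∃ j, k = j + 1 := ⟨k - 1, by omega⟩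
      have h3 := X_succ j
      have h4 : j < X j := lt_X j
      have h5 : 0 < Y j := Y_pos (by have := h.two_le; omega)
      omega
    rw [Nat.mod_eq_of_lt h1] at hl
    omega
  subst hlk
  refine ⟨hLk, rfl, rfl, n, hn, j1, j2, ?_⟩
  funext i
  fin_cases i
  · exact e0
  · exact e1
  · exact e2
  · exact a0
  · exact b0
  · exact a1
  · exact b1
  · exact a2
  · exact b2
  · exact ep.trans (by rw [hmk]; rfl)
  · exact eq.trans (by rw [hmk]; rfl)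

theorem Mat.exists {V kk : ℕ → ℕ} {L : ℕ} (h : VData V kk L) {l : ℕ} (hl : L ≤ l) :
    ∃ c : Fin 11 → ℕ, Mat V L l (X l) (Y l) c := by
  obtain ⟨n, hn, j1, j2⟩ := h.ex l hl
  have h2 := h.two_le
  have hl0 : 0 < l := by omega
  refine ⟨![V n, V (n + 1), V (n + 2), X (kk n), Y (kk n), X (kk (n + 1)), Y (kk (n + 1)),
        X (kk (n + 2)), Y (kk (n + 2)), X (l * (l + 1)), Y (l * (l + 1))],
    ⟨n, hn, rfl, rfl, rfl⟩, PellBelow.mk (h.kk_le n hn) (h.lt_kk n hn),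
    PellBelow.mk (h.kk_le _ (by omega)) (h.lt_kk _ (by omega)),
    PellBelow.mk (h.kk_le _ (by omega)) (h.lt_kk _ (by omega)), pell l,
    X_strictMono.monotone hl, ?_, ?_, pell _, ?_, ?_, ?_, ?_⟩
  · show X (kk (n + 1)) ≤ X l * X (kk n) + 3 * Y l * Y (kk n)
    rw [← X_add]
    exact X_strictMono.monotone j1
  · show X l * X (kk (n + 1)) + 3 * Y l * Y (kk (n + 1)) < X (kk (n + 2))
    rw [← X_add]
    exact X_strictMono j2
  · show Y (l * (l + 1)) % (Y l * (X l + 2 * Y l)) = 0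
    rw [← Y_succ]
    apply Nat.mod_eq_zero_of_dvd
    exact Nat.Coprime.mul_dvd_of_dvd_of_dvd (Y_coprime_succ l)
      ((Y_dvd_iff _ _).2 (Dvd.intro _ rfl)) ((Y_dvd_iff _ _).2 (Dvd.intro_left _ rfl))
  · exact Y_pos (by positivity)
  · show X (l * (l + 1)) ≤ X16 (X (kk n)) (Y (kk n))
    rw [X16_eq]
    exact X_strictMono.monotone (h.lo l hl n hn j1 j2)
  · show l + 1 = Y (l * (l + 1)) / Y l % (X l - 1)
    rw [Y_mul_mod hl0]
    have h1 : l + 1 < X l - 1 := by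
      obtain ⟨j, rfl⟩ : ∃ j, l = j + 1 := ⟨l - 1, by omega⟩
      have h3 := X_succ j
      have h4 : j < X j := lt_X j
      have h5 : 0 < Y j := Y_pos (by omega)
      omega
    rw [Nat.mod_eq_of_lt h1]

/-- II-C: the indexed Pell relation is single-fold -/
theorem PLrel_SF {V kk : ℕ → ℕ} {L : ℕ} (h : VData V kk L) : SF (PLrel L) := by
  refine (SF.exC (Mat.sf h) ?_).congr ?_
  · intro a c c' h1 h2
    obtain ⟨hl, e1, e2, n, hn, j1, j2, ec⟩ := Mat.char h h1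
    obtain ⟨_, _, _, m, hm, j3, j4, ec'⟩ := Mat.char h h2
    have hmn := h.uniq _ hl m n hm hn j3 j4 j1 j2
    subst hmn
    simp only [Sum.elim_inl, Sum.elim_inr] at ec ec'
    exact ec.trans ec'.symm
  · intro v
    constructor
    · rintro ⟨h1, h2, h3⟩
      obtain ⟨c, hc⟩ := Mat.exists h h1
      refine ⟨c, ?_⟩
      show Mat V L (v 0) (v 1) (v 2) c
      rw [h2, h3]
      exact hc
    · rintro ⟨c, hc⟩
      obtain ⟨hl, e1, e2, _⟩ := Mat.char h hc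
      exact ⟨hl, e1, e2⟩

/-- exponentiation is single-fold -/
theorem exp_SF_of_VData {V kk : ℕ → ℕ} {L : ℕ} (h : VData V kk L) :
    SF {v : Fin 3 → ℕ | v 2 = v 0 ^ v 1} :=
  exp_SF_of_PL (PLrel_SF h)

end Crest.Agent.SFD
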