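import Crest.Agent.SFD.Arith

/-!
# Row 323 (S0500), Part II-A/II-D: Pell numbers `X² - 3Y² = 1` and exponentiation (helper65)
-/

set_option autoImplicit false
set_option linter.all false

namespace Crest.Agent.SFD

/-- `X_k`: `X² - 3 Y² = 1`, fundamental solution `(2, 1)` -/
def X (k : ℕ) : ℕ := Pell.xn (a := 2) one_lt_two k

/-- `Y_k` -/
def Y (k : ℕ) : ℕ := Pell.yn (a := 2) one_lt_two k

theorem X_zero : X 0 = 1 := rfl
theorem Y_zero : Y 0 = 0 := rfl
theorem X_one : X 1 = 2 := Pell.xn_one _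
theorem Y_one : Y 1 = 1 := Pell.yn_one _

theorem X_add (m n : ℕ) : X (m + n) = X m * X n + 3 * Y m * Y n := Pell.xn_add _ m n

theorem Y_add (m n : ℕ) : Y (m + n) = X m * Y n + Y m * X n := Pell.yn_add _ m n

theorem X_succ (n : ℕ) : X (n + 1) = 2 * X n + 3 * Y n := by
  rw [X_add, X_one, Y_one]
  ring

theorem Y_succ (n : ℕ) : Y (n + 1) = X n + 2 * Y n := by
  rw [Y_add, X_one, Y_one]
  ring

theorem pell (n : ℕ) : X n * X n = 3 * Y n * Y n + 1 := by
  have h : X n * X n - 3 * Y n * Y n = 1 := Pell.pell_eq _ n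
  omega

theorem X_pos (n : ℕ) : 0 < X n := Pell.x_pos _ n

theorem X_strictMono : StrictMono X := Pell.strictMono_x _

theorem Y_strictMono : StrictMono Y := Pell.strictMono_y _

theorem Y_pos {n : ℕ} (h : 0 < n) : 0 < Y n := by
  have := Y_strictMono h
  rwa [Y_zero] at this

theorem eq_pell {x y : ℕ} (h : x * x = 3 * y * y + 1) : ∃ k, x = X k ∧ y = Y k := by
  have h1 : x * x - 3 * y * y = 1 := by omega
  exact Pell.eq_pell (a := 2) one_lt_two h1

theorem Y_dvd_iff (m n : ℕ) : Y m ∣ Y n ↔ m ∣ n := Pell.y_dvd_iff _ m n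

theorem lt_X (n : ℕ) : n < X n := Pell.n_lt_xn _ n

theorem two_pow_le_X (n : ℕ) : 2 ^ n ≤ X n := Pell.xn_ge_a_pow _ n

theorem one_lt_X {n : ℕ} (h : 0 < n) : 1 < X n := by
  have := X_strictMono h
  rwa [X_zero] at this

/-- multiples of the index: Pell numbers for the parameter `X_K` -/
theorem X_Y_mul {K : ℕ} (hK : 0 < K) (n : ℕ) :
    X (K * n) = Pell.xn (one_lt_X hK) n ∧ Y (K * n) = Y K * Pell.yn (one_lt_X hK) n := by
  induction n with
  | zero => exact ⟨rfl, rfl⟩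
  | succ n ih =>
    obtain ⟨h1, h2⟩ := ih
    have hp := pell K
    have e1 : Pell.xn (one_lt_X hK) (n + 1) = Pell.xn (one_lt_X hK) n * X K +
        (X K * X K - 1) * Pell.yn (one_lt_X hK) n := Pell.xn_succ _ n
    have e2 : Pell.yn (one_lt_X hK) (n + 1) = Pell.xn (one_lt_X hK) n +
        Pell.yn (one_lt_X hK) n * X K := Pell.yn_succ _ n
    have e3 : X K * X K - 1 = 3 * Y K * Y K := by omega
    rw [Nat.mul_succ, X_add, Y_add, h1, h2, e1, e2, e3]
    constructor <;> ring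

/-- read-off of the multiplier -/
theorem Y_mul_mod {K : ℕ} (hK : 0 < K) (n : ℕ) :
    Y (K * n) / Y K % (X K - 1) = n % (X K - 1) := by
  rw [(X_Y_mul hK n).2, Nat.mul_div_cancel_left _ (Y_pos hK)]
  exact Pell.yn_modEq_a_sub_one _ n

theorem X_two_mul (k : ℕ) : X (2 * k) = X k * X k + 3 * Y k * Y k := by
  rw [two_mul, X_add]

theorem Y_two_mul (k : ℕ) : Y (2 * k) = 2 * (X k * Y k) := by
  rw [two_mul, Y_add]
  ring

theorem Y_coprime_succ (l : ℕ) : Nat.Coprime (Y l) (Y (l + 1)) := by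
  rw [Y_succ]
  have h : Nat.Coprime (Y l) (X l) := (Pell.xy_coprime (a := 2) one_lt_two l).symm
  simpa using h

/-- the power as a residue -/
theorem pow_mod {a n b u p : ℕ} {hb : 1 < b} (hp : p = Pell.xn hb n) (hu : u = Pell.yn hb n)
    (ha : 1 ≤ a) (hlt : a ^ n < b) (hab : a < b) (z : ℕ) :
    z = a ^ n ↔ z < 2 * a * b - a * a - 1 ∧
      (z + (b - a) * u) % (2 * a * b - a * a - 1) = p % (2 * a * b - a * a - 1) := by
  have hM : b ≤ 2 * a * b - a * a - 1 := by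
    obtain ⟨c, rfl⟩ := Nat.exists_eq_add_of_lt hab
    have h1 : 2 * a * (a + c + 1) = a * a + 1 + (a * a + 2 * a * c + 2 * a - 1) := by
      have : 1 ≤ 2 * a := by omega
      have h2 : a * a + 2 * a * c + 2 * a - 1 + 1 = a * a + 2 * a * c + 2 * a := by omega
      nlinarith
    have h3 : a + c + 1 ≤ a * a + 2 * a * c + 2 * a - 1 := by
      have : a + c + 1 + 1 ≤ a * a + 2 * a * c + 2 * a := by nlinarith
      omega
    omega
  set M := 2 * a * b - a * a - 1 with hMdef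
  have hMcast : ((M : ℕ) : ℤ) = 2 * (b : ℤ) * (a : ℤ) - (a : ℤ) * (a : ℤ) - 1 := by
    have h1 : a * a + 1 ≤ 2 * a * b := by nlinarith
    rw [hMdef, Nat.sub_sub, Nat.cast_sub h1]
    push_cast
    ring
  have hdvd : ((M : ℕ) : ℤ) ∣ (u : ℤ) * ((b : ℤ) - (a : ℤ)) + ((a ^ n : ℕ) : ℤ) - (p : ℤ) := by
    rw [hMcast, hp, hu]
    exact Pell.x_sub_y_dvd_pow hb a n
  have hmod : (a ^ n + (b - a) * u) % M = p % M := by
    have h1 : ((a ^ n + (b - a) * u : ℕ) : ℤ) ≡ (p : ℤ) [ZMOD M] := by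
      refine (Int.modEq_iff_dvd.2 ?_)
      have h2 : (p : ℤ) - ((a ^ n + (b - a) * u : ℕ) : ℤ) =
          -((u : ℤ) * ((b : ℤ) - (a : ℤ)) + ((a ^ n : ℕ) : ℤ) - (p : ℤ)) := by
        push_cast [Nat.cast_sub hab.le]
        ring
      rw [h2]
      exact (dvd_neg).2 hdvd
    exact Int.natCast_modEq_iff.1 h1
  constructor
  · rintro rfl
    exact ⟨by omega, hmod⟩
  · rintro ⟨h1, h2⟩
    rw [← hmod] at h2
    have h3 : z ≡ a ^ n [MOD M] := Nat.ModEq.add_right_cancel' ((b - a) * u) h2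
    have h4 : z % M = a ^ n % M := h3
    rwa [Nat.mod_eq_of_lt h1, Nat.mod_eq_of_lt (by omega : a ^ n < M)] at h4

/-- the Pell relation with index -/
def PLrel (L : ℕ) : Set (Fin 3 → ℕ) := {v | L ≤ v 0 ∧ v 1 = X (v 0) ∧ v 2 = Y (v 0)}

theorem PLrel_comp {L : ℕ} (h : SF (PLrel L)) {A : Type} {f0 f1 f2 : (A → ℕ) → ℕ}
    (h0 : SFF f0) (h1 : SFF f1) (h2 : SFF f2) :
    SF {a | L ≤ f0 a ∧ f1 a = X (f0 a) ∧ f2 a = Y (f0 a)} := by
  have := SF.comp (A := A) h (f := ![f0, f1, f2]) (by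
    intro i
    fin_cases i
    · exact h0
    · exact h1
    · exact h2)
  exact this

/-- II-D: exponentiation from the indexed Pell relation -/
theorem exp_SF_of_PL {L : ℕ} (h : SF (PLrel L)) : SF {v : Fin 3 → ℕ | v 2 = v 0 ^ v 1} := by
  -- unknowns: 0 ↦ b = X_K, 1 ↦ Y_K, 2 ↦ p = X_{Kn}, 3 ↦ q = Y_{Kn}
  have hA0 : SFF (fun v : Fin 3 ⊕ Fin 4 → ℕ => v (Sum.inl 0)) := SFF.var _
  have hA1 : SFF (fun v : Fin 3 ⊕ Fin 4 → ℕ => v (Sum.inl 1)) := SFF.var _
  have hA2 : SFF (fun v : Fin 3 ⊕ Fin 4 → ℕ => v (Sum.inl 2)) := SFF.var _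
  have hC0 : SFF (fun v : Fin 3 ⊕ Fin 4 → ℕ => v (Sum.inr 0)) := SFF.var _
  have hC1 : SFF (fun v : Fin 3 ⊕ Fin 4 → ℕ => v (Sum.inr 1)) := SFF.var _
  have hC2 : SFF (fun v : Fin 3 ⊕ Fin 4 → ℕ => v (Sum.inr 2)) := SFF.var _
  have hC3 : SFF (fun v : Fin 3 ⊕ Fin 4 → ℕ => v (Sum.inr 3)) := SFF.var _
  have hK : SFF (fun v : Fin 3 ⊕ Fin 4 → ℕ =>
      v (Sum.inl 0) * v (Sum.inl 1) + v (Sum.inl 0) + v (Sum.inl 1) + (L + 1)) :=
    (((hA0.mul hA1).add hA0).add hA1).add (SFF.const _)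
  have hM : SFF (fun v : Fin 3 ⊕ Fin 4 → ℕ =>
      2 * v (Sum.inl 0) * v (Sum.inr 0) - v (Sum.inl 0) * v (Sum.inl 0) - 1) :=
    ((((SFF.const 2).mul hA0).mul hC0).sub (hA0.mul hA0)).sub (SFF.const 1)
  have hbody := (PLrel_comp h hK hC0 hC1).and ((PLrel_comp h (hK.mul hA1) hC2 hC3).and
    ((SF.lt hA2 hM).and
      (SF.eq ((hA2.add ((hC0.sub hA0).mul (hC3.div hC1))).mod hM) (hC2.mod hM))))
  have hex := SF.exC hbody (by
    rintro a c c' ⟨h1, h2, _⟩ ⟨h3, h4, _⟩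
    funext i
    simp only [Set.mem_ofPred_eq, Sum.elim_inl, Sum.elim_inr] at h1 h2 h3 h4
    fin_cases i
    · exact h1.2.1.trans h3.2.1.symm
    · exact h1.2.2.trans h3.2.2.symm
    · exact h2.2.1.trans h4.2.1.symm
    · exact h2.2.2.trans h4.2.2.symm)
  have hv0 : SFF (fun v : Fin 3 → ℕ => v 0) := SFF.var _
  have hv1 : SFF (fun v : Fin 3 → ℕ => v 1) := SFF.var _
  have hv2 : SFF (fun v : Fin 3 → ℕ => v 2) := SFF.var _
  have case0 : SF {v : Fin 3 → ℕ | v 1 = 0 ∧ v 2 = 1} :=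
    (SF.eq hv1 (SFF.const 0)).and (SF.eq hv2 (SFF.const 1))
  have case1 : SF {v : Fin 3 → ℕ | 0 < v 1 ∧ v 0 = 0 ∧ v 2 = 0} :=
    (SF.lt (SFF.const 0) hv1).and ((SF.eq hv0 (SFF.const 0)).and (SF.eq hv2 (SFF.const 0)))
  have case2 := (SF.lt (SFF.const 0) hv1).and ((SF.lt (SFF.const 0) hv0).and hex)
  refine ((case0.or case1 ?_).or case2 ?_).congr ?_
  · rintro v ⟨h1, _⟩ ⟨h2, _⟩
    omega
  · rintro v (⟨h1, _⟩ | ⟨_, h2, _⟩) ⟨h3, h4, _⟩
    · simp only [Set.mem_ofPred_eq] at h3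
      omega
    · simp only [Set.mem_ofPred_eq] at h4
      omega
  · intro v
    simp only [Set.mem_ofPred_eq, Sum.elim_inl, Sum.elim_inr]
    generalize v 0 = a
    generalize v 1 = n
    generalize v 2 = z
    rcases Nat.eq_zero_or_pos n with hn | hn
    · subst hn
      simp
    rcases Nat.eq_zero_or_pos a with ha | ha
    · subst ha
      rw [zero_pow hn.ne']
      constructor
      · intro e
        exact Or.inl (Or.inr ⟨hn, rfl, e⟩)
      · rintro ((⟨e, _⟩ | ⟨_, _, e⟩) | ⟨_, e, _⟩)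
        · omega
        · exact e
        · omega
    · set K := a * n + a + n + (L + 1) with hKdef
      have hK0 : 0 < K := by omega
      have hKn : L ≤ K * n := by nlinarith
      have hab : a < X K := lt_of_le_of_lt (by omega : a ≤ K) (lt_X K)
      have hpow : a ^ n < X K := by
        calc a ^ n ≤ (2 ^ a) ^ n := Nat.pow_le_pow_left a.lt_two_pow_self.le n
          _ = 2 ^ (a * n) := (pow_mul 2 a n).symm
          _ < 2 ^ K := Nat.pow_lt_pow_right (by norm_num) (by omega)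
          _ ≤ X K := two_pow_le_X K
      have hXY := X_Y_mul hK0 n
      have key := pow_mod (a := a) (n := n) (hb := one_lt_X hK0) (hp := hXY.1)
        (u := Y (K * n) / Y K) (by
          rw [hXY.2, Nat.mul_div_cancel_left _ (Y_pos hK0)]) ha hpow hab z
      constructor
      · intro e
        right
        refine ⟨hn, ha, ![X K, Y K, X (K * n), Y (K * n)], ⟨?_, rfl, rfl⟩, ⟨hKn, rfl, rfl⟩, ?_⟩
        · omega
        · exact key.1 e
      · rintro ((⟨e, _⟩ | ⟨_, e, _⟩) | ⟨_, _, c, ⟨_, e1, e2⟩, ⟨_, e3, e4⟩, e5⟩)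
        · omega
        · omega
        · rw [e1, e2, e3, e4] at e5
          exact key.2 e5

end Crest.Agent.SFD
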